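import Vale.Agent.P195R.Sym0
import Vale.Agent.P195A.Inst
import Vale.Agent.P195A.PPx

/-! # P195: exactness modulo lower order, in the dual system -/

namespace Vale.Agent.P195R

open MvPolynomial P195A P195A.RS

section coefs

variable {k U : Type} [Field k] [AddCommGroup U] [Module k U]

theorem vy_ext' {f g : Vy U →ₗ[k] U}
    (h : ∀ i j u, f (Finsupp.single (i, j) u) = g (Finsupp.single (i, j) u)) (v : Vy U) :
    f v = g v := by
  have : f = g := Finsupp.lhom_ext fun p u => h p.1 p.2 u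
  rw [this]

theorem y1_co (v : Vy U) (i j : ℕ) : (y1 k U v) (i, j + 1) = v (i, j) :=
  Finsupp.mapDomain_apply (fun p q h => by
    simp only [Prod.mk.injEq, Nat.add_right_cancel_iff] at h
    exact Prod.ext h.1 h.2) v (i, j)

theorem y0_co (v : Vy U) (i j : ℕ) : (y0 k U v) (i + 1, j) = v (i, j) :=
  Finsupp.mapDomain_apply (fun p q h => by
    simp only [Prod.mk.injEq, Nat.add_right_cancel_iff] at h
    exact Prod.ext h.1 h.2) v (i, j)

theorem y1_co0 (v : Vy U) (i : ℕ) : (y1 k U v) (i, 0) = 0 := by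
  refine Finsupp.mapDomain_of_notMem_range _ _ ?_
  rintro ⟨p, hp⟩
  simp only [Prod.mk.injEq] at hp
  omega

theorem y0_co0 (v : Vy U) (j : ℕ) : (y0 k U v) (0, j) = 0 := by
  refine Finsupp.mapDomain_of_notMem_range _ _ ?_
  rintro ⟨p, hp⟩
  simp only [Prod.mk.injEq] at hp
  omega

theorem q0_co (v : Vy U) (i j : ℕ) : (q0 k U v) (i, j) = ((i : k) + 1) • v (i + 1, j) := by
  refine vy_ext' (f := Finsupp.lapply (i, j) ∘ₗ q0 k U)
    (g := ((i : k) + 1) • Finsupp.lapply (i + 1, j)) (fun i' j' u => ?_) v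
  simp only [LinearMap.comp_apply, LinearMap.smul_apply, Finsupp.lapply_apply, q0_single,
    Finsupp.smul_apply, Finsupp.single_apply, Prod.mk.injEq]
  cases i' with
  | zero => simp
  | succ i' =>
    by_cases h : i' = i ∧ j' = j
    · rw [if_pos (by omega), if_pos (by omega), h.1]
      push_cast
      rfl
    · rw [if_neg (by omega), if_neg (by omega), smul_zero, smul_zero]

theorem q1_co (v : Vy U) (i j : ℕ) : (q1 k U v) (i, j) = ((j : k) + 1) • v (i, j + 1) := by
  refine vy_ext' (f := Finsupp.lapply (i, j) ∘ₗ q1 k U)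
    (g := ((j : k) + 1) • Finsupp.lapply (i, j + 1)) (fun i' j' u => ?_) v
  simp only [LinearMap.comp_apply, LinearMap.smul_apply, Finsupp.lapply_apply, q1_single,
    Finsupp.smul_apply, Finsupp.single_apply, Prod.mk.injEq]
  cases j' with
  | zero => simp
  | succ j' =>
    by_cases h : i' = i ∧ j' = j
    · rw [if_pos (by omega), if_pos (by omega), h.2]
      push_cast
      rfl
    · rw [if_neg (by omega), if_neg (by omega), smul_zero, smul_zero]

end coefs

variable {k : Type} [Field k] [CharZero k]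

/-- sequence of symbols of order `e` -/
noncomputable def ss (c : ℕ) (e : ℤ) (v : Vy (Wo k)) : ℕ → Sy k :=
  fun j => if j < c then sy k e (v (c - 1 - j, j)) else 0

theorem ss_sub (c : ℕ) (e : ℤ) (v v' : Vy (Wo k)) : ss c e (v - v') = ss c e v - ss c e v' := by
  ext1 j
  by_cases h : j < c
  · simp only [ss, if_pos h, Pi.sub_apply, Finsupp.sub_apply, map_sub]
  · simp only [ss, if_neg h, Pi.sub_apply, sub_zero]

theorem ss_add (c : ℕ) (e : ℤ) (v v' : Vy (Wo k)) : ss c e (v + v') = ss c e v + ss c e v' := by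
  ext1 j
  by_cases h : j < c
  · simp only [ss, if_pos h, Pi.add_apply, Finsupp.add_apply, map_add]
  · simp only [ss, if_neg h, Pi.add_apply, add_zero]

theorem ss_mem {c : ℕ} {w d : ℤ} {v : Vy (Wo k)} (hv : v ∈ (dual k).VV ((c : ℤ) - 1) w d) :
    ss c (w + d) v ∈ VV (Gs k (w + d) d) c := by
  rw [RS.mem_VV_iff] at hv
  refine ⟨fun j => ?_, fun j hj => by simp only [ss, if_neg (not_lt.2 hj)]⟩
  by_cases h : j < c
  · simp only [ss, if_pos h]
    have h1 := (hv (c - 1 - j) j).1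
    rw [dual_W, add_comm d w] at h1
    have h2 := sy_mem h1
    rwa [neg_add_cancel_left] at h2
  · simp only [ss, if_neg h]
    exact Submodule.zero_mem _

theorem ss_low {c : ℕ} {w d e : ℤ} {v : Vy (Wo k)} (hv : v ∈ (dual k).VV ((c : ℤ) - 1) w d)
    (h : w + d < e) : ss c e v = 0 := by
  rw [RS.mem_VV_iff] at hv
  ext1 j
  by_cases hj : j < c
  · simp only [ss, if_pos hj]
    have h1 := (hv (c - 1 - j) j).1
    rw [dual_W, add_comm d w] at h1
    exact sy_low h1 h
  · simp only [ss, if_neg hj]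
    rfl

theorem ss_zero {c : ℕ} {w d : ℤ} {v : Vy (Wo k)} (hv : v ∈ (dual k).VV ((c : ℤ) - 1) w d)
    (h : ss c (w + d) v = 0) : v ∈ (dual k).VV ((c : ℤ) - 1) w (d - 1) := by
  rw [RS.mem_VV_iff] at hv ⊢
  intro i j
  refine ⟨?_, (hv i j).2⟩
  by_cases hij : (i : ℤ) + j = (c : ℤ) - 1
  · have h1 := congrFun h j
    have hjc : j < c := by omega
    have hi : c - 1 - j = i := by omega
    simp only [ss, if_pos hjc, hi] at h1
    have h2 := (hv i j).1
    rw [dual_W, add_comm d w] at h2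
    have h3 := sy_zero h2 h1
    rw [dual_W]
    rwa [show d - 1 + w = w + d - 1 by ring]
  · rw [(hv i j).2 hij]
    exact Submodule.zero_mem _

theorem sy_dX {w d : ℤ} (a : Fin 2) {T : Wo k} (hT : T ∈ (dual k).W w d) :
    sy k (w + 1 + d) ((dual k).X a T) = X (Sum.inr a) * sy k (w + d) T := by
  rw [dual_X, show w + 1 + d = w + d + 1 by ring]
  rw [dual_W, add_comm d w] at hT
  exact sy_po a hT

theorem sy_dD {w d e : ℤ} (a : Fin 2) {T : Wo k} (hT : T ∈ (dual k).W w d) :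
    sy k e ((dual k).D a T) = X (Sum.inl a) * sy k e T := by
  rw [dual_D]
  exact sy_xo a hT

theorem ss_al {c : ℕ} {w d : ℤ} {v : Vy (Wo k)} (hv : v ∈ (dual k).VV ((c : ℤ) - 1) w d) :
    ss (c + 1) (w + 1 + d) ((dual k).al v) = (O0 k).al (ss c (w + d) v) := by
  rw [RS.mem_VV_iff] at hv
  ext1 j
  have e1 : ∀ i j, ((dual k).al v) (i, j) = (dual k).X 0 ((y1 k _ v) (i, j)) -
      (dual k).X 1 ((y0 k _ v) (i, j)) := fun i j => by
    rw [RS.al_apply, Finsupp.sub_apply, RS.lf_apply, RS.lf_apply]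
  cases j with
  | zero =>
    simp only [ss, if_pos (Nat.succ_pos c), Ops.al, sh_z, map_zero, zero_sub, e1, y1_co0,
      map_neg]
    by_cases hc : 0 < c
    · rw [if_pos hc]
      have e2 : c + 1 - 1 - 0 = (c - 1 - 0) + 1 := by omega
      rw [e2, y0_co, sy_dX 1 (hv _ _).1]
      rfl
    · have hc0 : c = 0 := by omega
      subst hc0
      rw [if_neg hc]
      have e3 : (0 + 1 - 1 - 0 : ℕ) = 0 := rfl
      rw [e3, y0_co0, map_zero, map_zero, map_zero]
  | succ j =>
    by_cases hj : j < c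
    · simp only [ss, if_pos (Nat.succ_lt_succ hj), Ops.al, sh_s, if_pos hj, e1]
      have e2 : c + 1 - 1 - (j + 1) = c - 1 - j := by omega
      rw [e2, y1_co, map_sub, sy_dX 0 (hv _ _).1]
      by_cases hj1 : j + 1 < c
      · rw [if_pos hj1]
        have e3 : c - 1 - j = (c - 1 - (j + 1)) + 1 := by omega
        conv_lhs => rw [e3]
        rw [y0_co, sy_dX 1 (hv _ _).1, ← e3]
        rfl
      · rw [if_neg hj1]
        have e3 : c - 1 - j = 0 := by omega
        rw [e3, y0_co0, map_zero, map_zero, map_zero]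
        rfl
    · simp only [ss, if_neg (show ¬ (j + 1 < c + 1) by omega), Ops.al, sh_s, if_neg hj,
        if_neg (show ¬ (j + 1 < c) by omega), map_zero, sub_zero]

theorem ss_be {c : ℕ} {w d : ℤ} {v : Vy (Wo k)} (hv : v ∈ (dual k).VV (c : ℤ) w d) :
    ss c (w + d) ((dual k).be v) = (O0 k).be (c : k) (ss (c + 1) (w + d) v) := by
  rw [RS.mem_VV_iff] at hv
  ext1 j
  have e1 : ∀ i j, ((dual k).be v) (i, j) = (dual k).D 1 ((q0 k _ v) (i, j)) -
      (dual k).D 0 ((q1 k _ v) (i, j)) := fun i j => by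
    rw [RS.be_apply, Finsupp.sub_apply, RS.lf_apply, RS.lf_apply]
  by_cases hj : j < c
  · simp only [ss, if_pos hj, Ops.be, if_pos (show j < c + 1 by omega),
      if_pos (show j + 1 < c + 1 by omega), e1, q0_co, q1_co]
    rw [map_sub, sy_dD 1 (Submodule.smul_mem _ _ (hv _ _).1),
      sy_dD 0 (Submodule.smul_mem _ _ (hv _ _).1), map_smul, map_smul]
    have e2 : c - 1 - j + 1 = c + 1 - 1 - j := by omega
    have e3 : c - 1 - j = c + 1 - 1 - (j + 1) := by omega
    have e4 : (((c - 1 - j : ℕ) : k)) + 1 = (c : k) - j := by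
      have : c = (c - 1 - j) + 1 + j := by omega
      conv_rhs => rw [this]
      push_cast
      ring
    rw [e4, e2, e3, Algebra.mul_smul_comm, Algebra.mul_smul_comm]
    rfl
  · rcases Nat.eq_or_lt_of_le (not_lt.1 hj) with h | h
    · subst h
      simp only [ss, if_neg hj, Ops.be, sub_self, zero_smul,
        if_neg (show ¬ (c + 1 < c + 1) by omega), map_zero, smul_zero]
    · simp only [ss, if_neg hj, Ops.be, if_neg (show ¬ (j < c + 1) by omega),
        if_neg (show ¬ (j + 1 < c + 1) by omega), map_zero, smul_zero, sub_zero]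

theorem ss_smul (c : ℕ) (e : ℤ) (r : k) (v : Vy (Wo k)) : ss c e (r • v) = r • ss c e v := by
  ext1 j
  by_cases h : j < c
  · simp only [ss, if_pos h, Pi.smul_apply, Finsupp.smul_apply, map_smul]
  · simp only [ss, if_neg h, Pi.smul_apply, smul_zero]

/-- the commuting `D X` -/
noncomputable def DX0 (f : ℕ → Sy k) : ℕ → Sy k := fun j =>
  (O0 k).D0 ((O0 k).X0 (f j)) + (O0 k).D1 ((O0 k).X1 (f j))

theorem ss_Z {c : ℕ} {w d : ℤ} {v : Vy (Wo k)} (hv : v ∈ (dual k).VV ((c : ℤ) - 1) w d) :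
    ss c (w + d + 1) ((dual k).Z v) = DX0 (ss c (w + d) v) := by
  have e0 := RS.euler hv
  have e1 : (dual k).Z v = lf ((dual k).D 0) (lf ((dual k).X 0) v) +
      lf ((dual k).D 1) (lf ((dual k).X 1) v) - (((c : ℤ) - 1 : ℤ) : k) • v := by
    rw [RS.Z_apply, ← e0]
    abel
  have hlow : ss c (w + d + 1) ((((c : ℤ) - 1 : ℤ) : k) • v) = 0 := by
    rw [ss_smul, ss_low hv (by omega), smul_zero]
  rw [e1, ss_sub, hlow, sub_zero, ss_add]
  rw [RS.mem_VV_iff] at hv
  ext1 j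
  by_cases h : j < c
  · simp only [ss, if_pos h, Pi.add_apply, DX0, RS.lf_apply]
    have hT := (hv (c - 1 - j) j).1
    rw [sy_dD 0 ((dual k).Xm 0 hT), sy_dD 1 ((dual k).Xm 1 hT),
      show w + d + 1 = w + 1 + d by ring, sy_dX 0 hT, sy_dX 1 hT]
    rfl
  · simp only [ss, if_neg h, Pi.add_apply, DX0, map_zero]

theorem ss_phi1 {n : ℕ} {w d : ℤ} {u v : Vy (Wo k)}
    (hu : u ∈ (dual k).VV ((n : ℤ) - 1) (w - 1) (d - 1))
    (hv : v ∈ (dual k).VV ((n : ℤ) + 1) (w + 1) (d - 2)) :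
    ss n (w + d - 1) ((dual k).phi1 u v) =
      (O0 k).ph1 n (ss n (w + d - 2) u) (ss (n + 2) (w + d - 1) v) := by
  have hq : (dual k).al u + (dual k).be v ∈ (dual k).VV (n : ℤ) w (d - 1) := by
    refine Submodule.add_mem _ ?_ ?_
    · have := RS.al_mem hu
      rwa [sub_add_cancel, sub_add_cancel] at this
    · have := RS.be_mem hv
      rwa [add_sub_cancel_right, add_sub_cancel_right, show d - 2 + 1 = d - 1 by ring] at this
  have h1 : (dual k).phi1 u v = (dual k).Z u - (2 : k) • u -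
      (dual k).be ((dual k).al u + (dual k).be v) := by
    rw [RS.phi1, map_add, two_smul]
    abel
  have h2 := ss_Z hu
  rw [show w - 1 + (d - 1) + 1 = w + d - 1 by ring, show w - 1 + (d - 1) = w + d - 2 by ring] at h2
  have h3 : ss n (w + d - 1) ((2 : k) • u) = 0 := by
    rw [ss_smul, ss_low hu (by omega), smul_zero]
  have h4 := ss_be hq
  rw [show w + (d - 1) = w + d - 1 by ring, ss_add] at h4
  have h5 := ss_al hu
  rw [show w - 1 + 1 + (d - 1) = w + d - 1 by ring, show w - 1 + (d - 1) = w + d - 2 by ring] at h5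
  have hv' : v ∈ (dual k).VV ((n + 1 : ℕ) : ℤ) (w + 1) (d - 2) := by
    push_cast
    exact hv
  have h6 := ss_be hv'
  rw [show w + 1 + (d - 2) = w + d - 1 by ring] at h6
  rw [h1, ss_sub, ss_sub, h2, h3, sub_zero, h4, h5, h6]
  ext1 j
  simp only [Pi.sub_apply, DX0, Ops.ph1, O0, mul_zero, zero_smul, sub_zero, cast1]
  rfl

theorem ss_phi2 {n : ℕ} {w d : ℤ} {u v : Vy (Wo k)}
    (hu : u ∈ (dual k).VV ((n : ℤ) - 1) (w - 1) (d - 1))
    (hv : v ∈ (dual k).VV ((n : ℤ) + 1) (w + 1) (d - 2)) :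
    ss (n + 2) (w + d) ((dual k).phi2 u v) =
      (O0 k).ph2 n (ss n (w + d - 2) u) (ss (n + 2) (w + d - 1) v) := by
  have hq : (dual k).al u + (dual k).be v ∈ (dual k).VV (n : ℤ) w (d - 1) := by
    refine Submodule.add_mem _ ?_ ?_
    · have := RS.al_mem hu
      rwa [sub_add_cancel, sub_add_cancel] at this
    · have := RS.be_mem hv
      rwa [add_sub_cancel_right, add_sub_cancel_right, show d - 2 + 1 = d - 1 by ring] at this
  have h1 : (dual k).phi2 u v = (dual k).Z v + (2 : k) • v +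
      (dual k).al ((dual k).al u + (dual k).be v) := by
    rw [RS.phi2, map_add, two_smul]
    abel
  have hv1 : v ∈ (dual k).VV (((n + 2 : ℕ) : ℤ) - 1) (w + 1) (d - 2) := by
    rwa [show ((n + 2 : ℕ) : ℤ) - 1 = n + 1 by push_cast; ring]
  have h2 := ss_Z hv1
  rw [show w + 1 + (d - 2) + 1 = w + d by ring, show w + 1 + (d - 2) = w + d - 1 by ring] at h2
  have h3 : ss (n + 2) (w + d) ((2 : k) • v) = 0 := by
    rw [ss_smul, ss_low hv1 (by omega), smul_zero]
  have hq' : (dual k).al u + (dual k).be v ∈ (dual k).VV (((n + 1 : ℕ) : ℤ) - 1) w (d - 1) := by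
    rwa [show ((n + 1 : ℕ) : ℤ) - 1 = n by push_cast; ring]
  have h4 := ss_al hq'
  rw [show w + 1 + (d - 1) = w + d by ring, show w + (d - 1) = w + d - 1 by ring, ss_add] at h4
  have h5 := ss_al hu
  rw [show w - 1 + 1 + (d - 1) = w + d - 1 by ring, show w - 1 + (d - 1) = w + d - 2 by ring] at h5
  have hv' : v ∈ (dual k).VV ((n + 1 : ℕ) : ℤ) (w + 1) (d - 2) := by
    push_cast
    exact hv
  have h6 := ss_be hv'
  rw [show w + 1 + (d - 2) = w + d - 1 by ring] at h6
  rw [h1, ss_add, ss_add, h2, h3, add_zero, h4, h5, h6]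
  ext1 j
  simp only [Pi.add_apply, DX0, Ops.ph2, O0, mul_zero, zero_smul, sub_zero, cast1]
  congr 1
  simp only [LinearMap.mulLeft_apply]
  ring

/-- lift of a sequence of symbols -/
noncomputable def lft (c : ℕ) (g : ℕ → Sy k) : Vy (Wo k) :=
  ∑ j ∈ Finset.range c, Finsupp.single (c - 1 - j, j) (NO k (g j))

theorem lft_mem {c : ℕ} {w d a : ℤ} {g : ℕ → Sy k} (ha : a = w + d) (hg : g ∈ VV (Gs k a d) c) :
    lft c g ∈ (dual k).VV ((c : ℤ) - 1) w d := by
  subst ha
  refine Submodule.sum_mem _ fun j hj => RS.single_mem ?_ ?_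
  · rw [dual_W, add_comm d w]
    refine NO_mem ?_
    rw [neg_add_cancel_left]
    exact hg.1 j
  · rw [Finset.mem_range] at hj
    omega

theorem lft_ss {c : ℕ} {a b : ℤ} {g : ℕ → Sy k} (hg : g ∈ VV (Gs k a b) c) :
    ss c a (lft c g) = g := by
  classical
  ext1 j
  by_cases h : j < c
  · have h1 : (lft c g) (c - 1 - j, j) = NO k (g j) := by
      rw [lft, Finsupp.finsetSum_apply]
      rw [Finset.sum_eq_single j]
      · rw [Finsupp.single_eq_same]
      · intro j' _ hne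
        rw [Finsupp.single_apply, if_neg]
        intro he
        rw [Prod.mk.injEq] at he
        exact hne he.2
      · intro hn
        exact absurd (Finset.mem_range.2 h) hn
    simp only [ss, if_pos h, h1]
    exact sy_NO (hg.1 j)
  · simp only [ss, if_neg h]
    exact (hg.2 j (not_lt.1 h)).symm

/-- injectivity modulo lower order -/
theorem mod3 {n : ℕ} {w d : ℤ} {z : Vy (Wo k)} (hz : z ∈ (dual k).VV (n : ℤ) w (d - 2))
    (h : (dual k).al z ∈ (dual k).VV ((n : ℤ) + 1) (w + 1) (d - 3)) :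
    z ∈ (dual k).VV (n : ℤ) w (d - 3) := by
  have hz1 : z ∈ (dual k).VV (((n + 1 : ℕ) : ℤ) - 1) w (d - 2) := by
    rwa [show ((n + 1 : ℕ) : ℤ) - 1 = n by push_cast; ring]
  have h' : (dual k).al z ∈ (dual k).VV (((n + 2 : ℕ) : ℤ) - 1) (w + 1) (d - 3) := by
    rwa [show ((n + 2 : ℕ) : ℤ) - 1 = (n : ℤ) + 1 by push_cast; ring]
  have h1 := ss_al hz1
  rw [ss_low h' (by omega)] at h1
  have h2 := al_inj (grd0 k) (ss_mem hz1) h1.symm
  have h3 := ss_zero hz1 h2
  rwa [show ((n + 1 : ℕ) : ℤ) - 1 = (n : ℤ) by push_cast; ring, show d - 2 - 1 = d - 3 by ring]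
    at h3

/-- exactness at the second spot modulo lower order -/
theorem mod2 {n : ℕ} {w d : ℤ} {u v : Vy (Wo k)}
    (hu : u ∈ (dual k).VV ((n : ℤ) - 1) (w - 1) (d - 1))
    (hv : v ∈ (dual k).VV ((n : ℤ) + 1) (w + 1) (d - 2))
    (h1 : (dual k).phi1 u v ∈ (dual k).VV ((n : ℤ) - 1) (w - 1) (d - 1))
    (h2 : (dual k).phi2 u v ∈ (dual k).VV ((n : ℤ) + 1) (w + 1) (d - 2)) :
    ∃ z ∈ (dual k).VV (n : ℤ) w (d - 2),
      u - (dual k).be z ∈ (dual k).VV ((n : ℤ) - 1) (w - 1) (d - 2) ∧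
      v + (dual k).al z ∈ (dual k).VV ((n : ℤ) + 1) (w + 1) (d - 3) := by
  have hv1 : v ∈ (dual k).VV (((n + 2 : ℕ) : ℤ) - 1) (w + 1) (d - 2) := by
    rwa [show ((n + 2 : ℕ) : ℤ) - 1 = (n : ℤ) + 1 by push_cast; ring]
  have h2' : (dual k).phi2 u v ∈ (dual k).VV (((n + 2 : ℕ) : ℤ) - 1) (w + 1) (d - 2) := by
    rwa [show ((n + 2 : ℕ) : ℤ) - 1 = (n : ℤ) + 1 by push_cast; ring]
  have e1 := ss_phi1 hu hv
  have e2 := ss_phi2 hu hv
  rw [ss_low h1 (by omega)] at e1
  rw [ss_low h2' (by omega)] at e2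
  have mu := ss_mem hu
  have mv := ss_mem hv1
  rw [show w - 1 + (d - 1) = w + d - 2 by ring] at mu
  rw [show w + 1 + (d - 2) = w + d - 1 by ring] at mv
  obtain ⟨s, hs, h3, h4⟩ := spot2 (grd0 k) (a := w + d - 2) (b := d - 2) (n := n)
    (by rwa [show d - 2 + 1 = d - 1 by ring])
    (by rwa [show w + d - 2 + 1 = w + d - 1 by ring]) e1.symm e2.symm
  have hs1 := lft_mem (w := w) (by ring) hs
  have hs2 := lft_ss hs
  have hs3 : lft (n + 1) s ∈ (dual k).VV (n : ℤ) w (d - 2) := by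
    rwa [show ((n + 1 : ℕ) : ℤ) - 1 = (n : ℤ) by push_cast; ring] at hs1
  refine ⟨lft (n + 1) s, hs3, ?_, ?_⟩
  · have hb := RS.be_mem hs3
    rw [show d - 2 + 1 = d - 1 by ring] at hb
    have hm := Submodule.sub_mem _ hu hb
    have h5 : ss n (w - 1 + (d - 1)) (u - (dual k).be (lft (n + 1) s)) = 0 := by
      have h6 := ss_be hs3
      rw [show w + (d - 2) = w + d - 2 by ring, hs2] at h6
      rw [ss_sub, show w - 1 + (d - 1) = w + d - 2 by ring, h6, h3, sub_self]
    have h7 := ss_zero hm h5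
    rwa [show d - 1 - 1 = d - 2 by ring] at h7
  · have hb := RS.al_mem hs3
    have hm : v + (dual k).al (lft (n + 1) s) ∈
        (dual k).VV (((n + 2 : ℕ) : ℤ) - 1) (w + 1) (d - 2) := by
      rw [show ((n + 2 : ℕ) : ℤ) - 1 = (n : ℤ) + 1 by push_cast; ring]
      exact Submodule.add_mem _ hv hb
    have h5 : ss (n + 2) (w + 1 + (d - 2)) (v + (dual k).al (lft (n + 1) s)) = 0 := by
      have h6 := ss_al hs1
      rw [show w + (d - 2) = w + d - 2 by ring, hs2] at h6
      rw [ss_add, h6, show w + 1 + (d - 2) = w + d - 1 by ring, h4, neg_add_cancel]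
    have h7 := ss_zero hm h5
    rwa [show d - 2 - 1 = d - 3 by ring,
      show ((n + 2 : ℕ) : ℤ) - 1 = (n : ℤ) + 1 by push_cast; ring] at h7

/-- exactness at the first spot modulo lower order -/
theorem mod1 {n : ℕ} {w d : ℤ} (hwd : 1 ≤ w + d) {u v : Vy (Wo k)}
    (hu : u ∈ (dual k).VV ((n : ℤ) - 1) (w - 1) d)
    (hv : v ∈ (dual k).VV ((n : ℤ) + 1) (w + 1) (d - 1))
    (h : (dual k).al u + (dual k).be v ∈ (dual k).VV (n : ℤ) w (d - 1)) :
    ∃ u' ∈ (dual k).VV ((n : ℤ) - 1) (w - 1) (d - 1),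
      ∃ v' ∈ (dual k).VV ((n : ℤ) + 1) (w + 1) (d - 2),
      u - (dual k).phi1 u' v' ∈ (dual k).VV ((n : ℤ) - 1) (w - 1) (d - 1) ∧
      v - (dual k).phi2 u' v' ∈ (dual k).VV ((n : ℤ) + 1) (w + 1) (d - 2) := by
  have hv1 : v ∈ (dual k).VV (((n + 2 : ℕ) : ℤ) - 1) (w + 1) (d - 1) := by
    rwa [show ((n + 2 : ℕ) : ℤ) - 1 = (n : ℤ) + 1 by push_cast; ring]
  have hv2 : v ∈ (dual k).VV ((n + 1 : ℕ) : ℤ) (w + 1) (d - 1) := by
    push_cast
    exact hv
  have h' : (dual k).al u + (dual k).be v ∈ (dual k).VV (((n + 1 : ℕ) : ℤ) - 1) w (d - 1) := by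
    rwa [show ((n + 1 : ℕ) : ℤ) - 1 = (n : ℤ) by push_cast; ring]
  have e1 := ss_al hu
  have e2 := ss_be hv2
  rw [show w - 1 + 1 + d = w + d by ring, show w - 1 + d = w + d - 1 by ring] at e1
  rw [show w + 1 + (d - 1) = w + d by ring] at e2
  have e3 : ss (n + 1) (w + d) ((dual k).al u + (dual k).be v) = 0 := ss_low h' (by omega)
  rw [ss_add, e1, e2] at e3
  have mu := ss_mem hu
  have mv := ss_mem hv1
  rw [show w - 1 + d = w + d - 1 by ring] at mu
  rw [show w + 1 + (d - 1) = w + d by ring] at mv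
  obtain ⟨s, hs, r, hr, h3, h4⟩ := spot1 (grd0 k) (a := w + d - 2) (b := d - 2) (n := n) (by omega)
    (u := ss n (w + d - 1) u) (v := ss (n + 2) (w + d) v)
    (by rwa [show d - 2 + 2 = d by ring, show w + d - 2 + 1 = w + d - 1 by ring])
    (by rwa [show d - 2 + 1 = d - 1 by ring, show w + d - 2 + 2 = w + d by ring])
    (by rw [← cast1]; exact e3)
  rw [show d - 2 + 1 = d - 1 by ring] at hs
  rw [show w + d - 2 + 1 = w + d - 1 by ring] at hr
  have hs1 := lft_mem (w := w - 1) (by ring) hs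
  have hr1 := lft_mem (w := w + 1) (by ring) hr
  rw [show ((n + 2 : ℕ) : ℤ) - 1 = (n : ℤ) + 1 by push_cast; ring] at hr1
  have m1 : (dual k).phi1 (lft n s) (lft (n + 2) r) ∈ (dual k).VV ((n : ℤ) - 1) (w - 1) d := by
    have := RS.phi1_mem (S := dual k) hs1 (v := lft (n + 2) r) (by
      rwa [show (n : ℤ) - 1 + 2 = n + 1 by ring, show w - 1 + 2 = w + 1 by ring,
        show d - 1 - 1 = d - 2 by ring])
    rwa [show d - 1 + 1 = d by ring] at this
  have m2 : (dual k).phi2 (lft n s) (lft (n + 2) r) ∈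
      (dual k).VV ((n : ℤ) + 1) (w + 1) (d - 1) := by
    have := RS.phi2_mem (S := dual k) (u := lft n s) (v := lft (n + 2) r) (m := (n : ℤ) + 1)
      (w := w + 1) (d := d - 2) (by
      rwa [show (n : ℤ) + 1 - 2 = n - 1 by ring, show w + 1 - 2 = w - 1 by ring,
        show d - 2 + 1 = d - 1 by ring]) hr1
    rwa [show d - 2 + 1 = d - 1 by ring] at this
  refine ⟨lft n s, hs1, lft (n + 2) r, hr1, ?_, ?_⟩
  · have hm := Submodule.sub_mem _ hu m1
    have h5 : ss n (w - 1 + d) (u - (dual k).phi1 (lft n s) (lft (n + 2) r)) = 0 := by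
      have h6 := ss_phi1 hs1 hr1
      rw [lft_ss hs, lft_ss hr, h3] at h6
      rw [ss_sub, show w - 1 + d = w + d - 1 by ring, h6, sub_self]
    exact ss_zero hm h5
  · have hm : v - (dual k).phi2 (lft n s) (lft (n + 2) r) ∈
        (dual k).VV (((n + 2 : ℕ) : ℤ) - 1) (w + 1) (d - 1) := by
      rw [show ((n + 2 : ℕ) : ℤ) - 1 = (n : ℤ) + 1 by push_cast; ring]
      exact Submodule.sub_mem _ hv m2
    have h5 : ss (n + 2) (w + 1 + (d - 1)) (v - (dual k).phi2 (lft n s) (lft (n + 2) r)) = 0 := by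
      have h6 := ss_phi2 hs1 hr1
      rw [lft_ss hs, lft_ss hr, h4] at h6
      rw [ss_sub, show w + 1 + (d - 1) = w + d by ring, h6, sub_self]
    have h7 := ss_zero hm h5
    rwa [show d - 1 - 1 = d - 2 by ring,
      show ((n + 2 : ℕ) : ℤ) - 1 = (n : ℤ) + 1 by push_cast; ring] at h7

/-- surjectivity at the last spot modulo lower order -/
theorem mod0 {n : ℕ} {w d : ℤ} (hwd : 1 ≤ w + d) (hd : 1 ≤ d) {z : Vy (Wo k)}
    (hz : z ∈ (dual k).VV (n : ℤ) w d) :
    ∃ u ∈ (dual k).VV ((n : ℤ) - 1) (w - 1) d, ∃ v ∈ (dual k).VV ((n : ℤ) + 1) (w + 1) (d - 1),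
      z - ((dual k).al u + (dual k).be v) ∈ (dual k).VV (n : ℤ) w (d - 1) := by
  have hz1 : z ∈ (dual k).VV (((n + 1 : ℕ) : ℤ) - 1) w d := by
    rwa [show ((n + 1 : ℕ) : ℤ) - 1 = (n : ℤ) by push_cast; ring]
  have mz := ss_mem hz1
  obtain ⟨s, hs, r, hr, h3⟩ := spot0 (grd0 k) (a := w + d - 2) (b := d - 2) (n := n) (by omega)
    (by omega) (s := ss (n + 1) (w + d) z)
    (by rwa [show d - 2 + 2 = d by ring, show w + d - 2 + 2 = w + d by ring])
  rw [show d - 2 + 2 = d by ring, show w + d - 2 + 1 = w + d - 1 by ring] at hs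
  rw [show d - 2 + 1 = d - 1 by ring, show w + d - 2 + 2 = w + d by ring] at hr
  have hs1 := lft_mem (w := w - 1) (by ring) hs
  have hr1 := lft_mem (w := w + 1) (by ring) hr
  rw [show ((n + 2 : ℕ) : ℤ) - 1 = (n : ℤ) + 1 by push_cast; ring] at hr1
  have hr2 : lft (n + 2) r ∈ (dual k).VV ((n + 1 : ℕ) : ℤ) (w + 1) (d - 1) := by
    push_cast
    exact hr1
  have e1 := ss_al hs1
  have e2 := ss_be hr2
  rw [show w - 1 + 1 + d = w + d by ring, show w - 1 + d = w + d - 1 by ring, lft_ss hs] at e1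
  rw [show w + 1 + (d - 1) = w + d by ring, lft_ss hr] at e2
  refine ⟨lft n s, hs1, lft (n + 2) r, hr1, ?_⟩
  have m1 := RS.al_mem hs1
  have m2 := RS.be_mem hr1
  rw [sub_add_cancel, sub_add_cancel] at m1
  rw [add_sub_cancel_right, add_sub_cancel_right, sub_add_cancel] at m2
  have hm : z - ((dual k).al (lft n s) + (dual k).be (lft (n + 2) r)) ∈
      (dual k).VV (((n + 1 : ℕ) : ℤ) - 1) w d := by
    rw [show ((n + 1 : ℕ) : ℤ) - 1 = (n : ℤ) by push_cast; ring]
    exact Submodule.sub_mem _ hz (Submodule.add_mem _ m1 m2)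
  have h5 : ss (n + 1) (w + d) (z - ((dual k).al (lft n s) + (dual k).be (lft (n + 2) r))) = 0 := by
    rw [ss_sub, ss_add, e1, e2, cast1, h3, sub_self]
  have h7 := ss_zero hm h5
  rwa [show ((n + 1 : ℕ) : ℤ) - 1 = (n : ℤ) by push_cast; ring] at h7

end Vale.Agent.P195R
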