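import Mathlib

/-! # P195, the complexes RR(n): abstract (Howe dual) form.

`Ops`: operators `X0 X1 D0 D1` with `X_a D_a = D_a X_a + t`.  Sequences `h : ℕ → M` stand for
`∑ h_i y0^(m-i) y1^i`.  `al = X0 y1 - X1 y0`, `be = D1 d/dy0 - D0 d/dy1`. -/

namespace Vale.Agent.P195R

open Finset

/-- operators on a module -/
structure Ops (k M : Type*) [Field k] [AddCommGroup M] [Module k M] where
  X0 : M →ₗ[k] M
  X1 : M →ₗ[k] M
  D0 : M →ₗ[k] M
  D1 : M →ₗ[k] M
  t : k
  hXX : ∀ z, X0 (X1 z) = X1 (X0 z)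
  hDD : ∀ z, D0 (D1 z) = D1 (D0 z)
  h01 : ∀ z, X0 (D1 z) = D1 (X0 z)
  h10 : ∀ z, X1 (D0 z) = D0 (X1 z)
  h00 : ∀ z, X0 (D0 z) = D0 (X0 z) + t • z
  h11 : ∀ z, X1 (D1 z) = D1 (X1 z) + t • z

/-- sequences supported on `i < c` with values in `N` -/
def VV {k M : Type*} [Field k] [AddCommGroup M] [Module k M] (N : Submodule k M) (c : ℕ) :
    Submodule k (ℕ → M) where
  carrier := {h | (∀ i, h i ∈ N) ∧ ∀ i, c ≤ i → h i = 0}
  add_mem' := by
    rintro a b ⟨ha, ha'⟩ ⟨hb, hb'⟩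
    refine ⟨fun i => N.add_mem (ha i) (hb i), fun i hi => ?_⟩
    simp [ha' i hi, hb' i hi]
  zero_mem' := ⟨fun i => N.zero_mem, fun i _ => rfl⟩
  smul_mem' := by
    rintro r a ⟨ha, ha'⟩
    refine ⟨fun i => N.smul_mem r (ha i), fun i hi => ?_⟩
    simp [ha' i hi]

variable {k M : Type*} [Field k] [AddCommGroup M] [Module k M]

theorem mem_VV {N : Submodule k M} {c : ℕ} {h : ℕ → M} :
    h ∈ VV N c ↔ (∀ i, h i ∈ N) ∧ ∀ i, c ≤ i → h i = 0 := Iff.rfl

theorem VV_mono {N N' : Submodule k M} (h : N ≤ N') (c : ℕ) : VV N c ≤ VV N' c :=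
  fun _ hz => ⟨fun i => h (hz.1 i), hz.2⟩

theorem VV_bot {c : ℕ} {h : ℕ → M} (hh : h ∈ VV (⊥ : Submodule k M) c) : h = 0 := by
  ext i
  simpa using hh.1 i

theorem VV_zero {N : Submodule k M} {h : ℕ → M} (hh : h ∈ VV N 0) : h = 0 := by
  ext i
  exact hh.2 i (Nat.zero_le i)

/-- shift -/
def sh (g : ℕ → M) : ℕ → M
  | 0 => 0
  | i + 1 => g i

@[simp] theorem sh_z (g : ℕ → M) : sh g 0 = 0 := rfl
@[simp] theorem sh_s (g : ℕ → M) (i : ℕ) : sh g (i + 1) = g i := rfl

theorem sh_sub (g g' : ℕ → M) (i : ℕ) : sh (g - g') i = sh g i - sh g' i := by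
  cases i <;> simp

theorem sh_smul (r : k) (g : ℕ → M) (i : ℕ) : sh (r • g) i = r • sh g i := by
  cases i <;> simp

theorem sh_VV {N : Submodule k M} {c : ℕ} {h : ℕ → M} (hh : h ∈ VV N c) (i : ℕ) : sh h i ∈ N := by
  cases i with
  | zero => exact N.zero_mem
  | succ i => exact hh.1 i

namespace Ops

variable (O : Ops k M)

/-- `X0 y1 - X1 y0` -/
def al (g : ℕ → M) : ℕ → M := fun i => O.X0 (sh g i) - O.X1 (g i)

/-- `D1 d/dy0 - D0 d/dy1` on sequences of degree `m` -/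
def be (m : k) (h : ℕ → M) : ℕ → M :=
  fun i => (m - (i : k)) • O.D1 (h i) - ((i : k) + 1) • O.D0 (h (i + 1))

/-- first component of phi -/
def ph1 (n : ℕ) (u v : ℕ → M) : ℕ → M := fun i =>
  O.D0 (O.X0 (u i)) + O.D1 (O.X1 (u i)) - (((n : k) + 1) * O.t) • u i
    - O.be n (fun j => O.al u j + O.be (n + 1) v j) i

/-- second component of phi -/
def ph2 (n : ℕ) (u v : ℕ → M) : ℕ → M := fun i =>
  O.X0 (O.D0 (v i)) + O.X1 (O.D1 (v i)) - (((n : k) + 1) * O.t) • v i
    + O.al (fun j => O.al u j + O.be (n + 1) v j) i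

@[simp] theorem al_zero : O.al 0 = 0 := by
  ext i
  cases i <;> simp [al]

theorem al_sub (g g' : ℕ → M) : O.al (g - g') = O.al g - O.al g' := by
  ext i
  cases i <;> simp only [al, Pi.sub_apply, sh_sub, map_sub] <;> abel

theorem al_neg (g : ℕ → M) : O.al (-g) = - O.al g := by
  have h := O.al_sub 0 g
  simpa using h

theorem al_add (g g' : ℕ → M) : O.al (g + g') = O.al g + O.al g' := by
  have h := O.al_sub g (-g')
  rw [al_neg] at h
  simpa using h

theorem al_smul (r : k) (g : ℕ → M) : O.al (r • g) = r • O.al g := by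
  ext i
  simp only [al, Pi.smul_apply, sh_smul, map_smul, smul_sub]

@[simp] theorem be_zero (m : k) : O.be m 0 = 0 := by
  ext i
  simp [be]

theorem be_sub (m : k) (g g' : ℕ → M) : O.be m (g - g') = O.be m g - O.be m g' := by
  ext i
  simp only [be, Pi.sub_apply, map_sub, smul_sub]
  abel

theorem be_neg (m : k) (g : ℕ → M) : O.be m (-g) = - O.be m g := by
  have h := O.be_sub m 0 g
  simpa using h

theorem be_add (m : k) (g g' : ℕ → M) : O.be m (g + g') = O.be m g + O.be m g' := by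
  have h := O.be_sub m g (-g')
  rw [be_neg] at h
  simpa using h

theorem be_smul (m r : k) (g : ℕ → M) : O.be m (r • g) = r • O.be m g := by
  ext i
  simp only [be, Pi.smul_apply, map_smul]
  module

theorem ph1_sub (n : ℕ) (u v u' v' : ℕ → M) :
    O.ph1 n (u - u') (v - v') = O.ph1 n u v - O.ph1 n u' v' := by
  have h : (fun j => O.al (u - u') j + O.be (n + 1) (v - v') j) =
      (fun j => O.al u j + O.be (n + 1) v j) - (fun j => O.al u' j + O.be (n + 1) v' j) := by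
    ext j
    simp only [al_sub, be_sub, Pi.sub_apply]
    abel
  ext i
  simp only [ph1, Pi.sub_apply, map_sub, smul_sub]
  rw [h, be_sub]
  simp only [Pi.sub_apply]
  abel

theorem ph2_sub (n : ℕ) (u v u' v' : ℕ → M) :
    O.ph2 n (u - u') (v - v') = O.ph2 n u v - O.ph2 n u' v' := by
  have h : (fun j => O.al (u - u') j + O.be (n + 1) (v - v') j) =
      (fun j => O.al u j + O.be (n + 1) v j) - (fun j => O.al u' j + O.be (n + 1) v' j) := by
    ext j
    simp only [al_sub, be_sub, Pi.sub_apply]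
    abel
  ext i
  simp only [ph2, Pi.sub_apply, map_sub, smul_sub]
  rw [h, al_sub]
  simp only [Pi.sub_apply]
  abel

/-- the sl2 relation -/
theorem al_be (m : k) (h : ℕ → M) (i : ℕ) : O.al (O.be m h) i =
    O.be (m + 1) (O.al h) i + (O.D0 (O.X0 (h i)) + O.D1 (O.X1 (h i)) - (m * O.t) • h i) := by
  cases i with
  | zero =>
    simp only [al, be, sh_z, sh_s, map_sub, map_smul, O.h10, O.h11, map_zero,
      Nat.cast_zero]
    module
  | succ i =>
    simp only [al, be, sh_s, map_sub, map_smul, O.h01, O.h00, O.h10, O.h11, Nat.cast_add,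
      Nat.cast_one]
    module

theorem al_DX (u : ℕ → M) (i : ℕ) :
    O.al (fun j => O.D0 (O.X0 (u j)) + O.D1 (O.X1 (u j))) i =
      O.D0 (O.X0 (O.al u i)) + O.D1 (O.X1 (O.al u i)) + O.t • O.al u i := by
  cases i with
  | zero =>
    simp only [al, sh_z, map_sub, map_add, O.h10, O.h11, O.hXX, map_zero]
    module
  | succ i =>
    simp only [al, sh_s, map_sub, map_add, O.h01, O.h00, O.h10, O.h11, O.hXX]
    module

theorem be_XD (m : k) (v : ℕ → M) (i : ℕ) :
    O.be m (fun j => O.X0 (O.D0 (v j)) + O.X1 (O.D1 (v j))) i =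
      O.X0 (O.D0 (O.be m v i)) + O.X1 (O.D1 (O.be m v i)) - O.t • O.be m v i := by
  simp only [be, map_sub, map_add, map_smul, O.h01, O.h00, O.h10, O.h11, O.hDD]
  module

theorem be_DX (m : k) (v : ℕ → M) (i : ℕ) :
    O.be m (fun j => O.D0 (O.X0 (v j)) + O.D1 (O.X1 (v j))) i =
      O.D0 (O.X0 (O.be m v i)) + O.D1 (O.X1 (O.be m v i)) - O.t • O.be m v i := by
  simp only [be, map_sub, map_add, map_smul, O.h01, O.h00, O.h10, O.h11, O.hDD]
  module

theorem al_XD (u : ℕ → M) (i : ℕ) :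
    O.al (fun j => O.X0 (O.D0 (u j)) + O.X1 (O.D1 (u j))) i =
      O.X0 (O.D0 (O.al u i)) + O.X1 (O.D1 (O.al u i)) + O.t • O.al u i := by
  cases i with
  | zero =>
    simp only [al, sh_z, map_sub, map_add, O.h01, O.h00, O.h10, O.h11, O.hXX, map_zero, map_smul]
    module
  | succ i =>
    simp only [al, sh_s, map_sub, map_add, O.h01, O.h00, O.h10, O.h11, O.hXX, map_smul]
    module

/-- `phi d3 = 0`, first component -/
theorem ph1_d3 (n : ℕ) (z : ℕ → M) : O.ph1 n (O.be n z) (-O.al z) = 0 := by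
  have hq : (fun j => O.al (O.be n z) j + O.be (n + 1) (-O.al z) j) =
      (fun j => O.D0 (O.X0 (z j)) + O.D1 (O.X1 (z j))) - ((n : k) * O.t) • z := by
    ext j
    rw [al_be, be_neg]
    simp only [Pi.sub_apply, Pi.neg_apply, Pi.smul_apply]
    abel
  ext i
  simp only [ph1]
  rw [hq, be_sub, be_smul]
  simp only [Pi.sub_apply, Pi.smul_apply, Pi.zero_apply]
  rw [be_DX]
  module

theorem ph2_d3 (n : ℕ) (z : ℕ → M) : O.ph2 n (O.be n z) (-O.al z) = 0 := by
  have hq : (fun j => O.al (O.be n z) j + O.be (n + 1) (-O.al z) j) =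
      (fun j => O.D0 (O.X0 (z j)) + O.D1 (O.X1 (z j))) - ((n : k) * O.t) • z := by
    ext j
    rw [al_be, be_neg]
    simp only [Pi.sub_apply, Pi.neg_apply, Pi.smul_apply]
    abel
  ext i
  simp only [ph2]
  rw [hq, al_sub, al_smul]
  simp only [Pi.sub_apply, Pi.smul_apply, Pi.zero_apply, Pi.neg_apply, map_neg, smul_neg]
  rw [al_DX, O.h00, O.h11]
  module

/-- `d1 phi = 0` -/
theorem d1_ph (n : ℕ) (u v : ℕ → M) :
    O.al (O.ph1 n u v) + O.be (n + 1) (O.ph2 n u v) = 0 := by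
  have h1 : O.ph1 n u v = (fun j => O.D0 (O.X0 (u j)) + O.D1 (O.X1 (u j)))
      - (((n : k) + 1) * O.t) • u - O.be n (fun j => O.al u j + O.be (n + 1) v j) := by
    ext i
    simp only [ph1, Pi.sub_apply, Pi.smul_apply]
  have h2 : O.ph2 n u v = (fun j => O.X0 (O.D0 (v j)) + O.X1 (O.D1 (v j)))
      - (((n : k) + 1) * O.t) • v + O.al (fun j => O.al u j + O.be (n + 1) v j) := by
    ext i
    simp only [ph2, Pi.sub_apply, Pi.smul_apply, Pi.add_apply]
  ext i
  rw [h1, h2]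
  simp only [al_sub, be_sub, be_add, al_smul, be_smul, Pi.add_apply, Pi.sub_apply, Pi.smul_apply,
    Pi.zero_apply]
  rw [al_DX, be_XD, al_be]
  simp only [map_add, O.h00, O.h11]
  module

end Ops

end Vale.Agent.P195R
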