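import Vale.Agent.P195R.Bridge
import Vale.Agent.P195A.FamO
import Vale.Agent.P195A.PiSys
import Vale.Agent.P195E.AugCat

/-! # P195: the targets `F`, `K` (dual side): exactness and the comparison `rho` -/

namespace Vale.Agent.P195R

open P195A P195A.RS

section ext

variable {k : Type} [Field k]

/-- a linear map applied to the coefficients -/
noncomputable def lm {U V : Type} [AddCommGroup U] [Module k U] [AddCommGroup V] [Module k V]
    (L : U →ₗ[k] V) : Vy U →ₗ[k] Vy V := Finsupp.mapRange.linearMap L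

variable {U V : Type} [AddCommGroup U] [Module k U] [AddCommGroup V] [Module k V]

theorem lm_single (L : U →ₗ[k] V) (p : ℕ × ℕ) (u : U) :
    lm L (Finsupp.single p u) = Finsupp.single p (L u) := by
  simp [lm]

theorem lm_co (L : U →ₗ[k] V) (v : Vy U) (p : ℕ × ℕ) : lm L v p = L (v p) := by
  simp [lm]

private theorem lm_ext {f g : Vy U →ₗ[k] Vy V}
    (h : ∀ i j u, f (Finsupp.single (i, j) u) = g (Finsupp.single (i, j) u)) (v : Vy U) :
    f v = g v := by
  have : f = g := Finsupp.lhom_ext fun p u => h p.1 p.2 u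
  rw [this]

theorem lm_y0 (L : U →ₗ[k] V) (v : Vy U) : lm L (y0 k U v) = y0 k V (lm L v) := by
  refine lm_ext (f := lm L ∘ₗ y0 k U) (g := y0 k V ∘ₗ lm L) (fun i j u => ?_) v
  simp only [LinearMap.comp_apply, lm_single, y0_single]

theorem lm_y1 (L : U →ₗ[k] V) (v : Vy U) : lm L (y1 k U v) = y1 k V (lm L v) := by
  refine lm_ext (f := lm L ∘ₗ y1 k U) (g := y1 k V ∘ₗ lm L) (fun i j u => ?_) v
  simp only [LinearMap.comp_apply, lm_single, y1_single]

theorem lm_q0 (L : U →ₗ[k] V) (v : Vy U) : lm L (q0 k U v) = q0 k V (lm L v) := by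
  refine lm_ext (f := lm L ∘ₗ q0 k U) (g := q0 k V ∘ₗ lm L) (fun i j u => ?_) v
  simp only [LinearMap.comp_apply, lm_single, q0_single, map_smul]

theorem lm_q1 (L : U →ₗ[k] V) (v : Vy U) : lm L (q1 k U v) = q1 k V (lm L v) := by
  refine lm_ext (f := lm L ∘ₗ q1 k U) (g := q1 k V ∘ₗ lm L) (fun i j u => ?_) v
  simp only [LinearMap.comp_apply, lm_single, q1_single, map_smul]

theorem lm_lf {L : U →ₗ[k] V} {A : U →ₗ[k] U} {B : V →ₗ[k] V} (h : ∀ u, L (A u) = B (L u))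
    (v : Vy U) : lm L (lf A v) = lf B (lm L v) := by
  refine lm_ext (f := lm L ∘ₗ lf A) (g := lf B ∘ₗ lm L) (fun i j u => ?_) v
  simp only [LinearMap.comp_apply, lm_single, lf_single, h]

variable {T T' : Type} [AddCommGroup T] [Module k T] [AddCommGroup T'] [Module k T']

/-- a map of systems (operators only) -/
structure Mor (S : RS k U T) (S' : RS k V T') (L : U →ₗ[k] V) : Prop where
  x : ∀ a u, L (S.X a u) = S'.X a (L u)
  d : ∀ a u, L (S.D a u) = S'.D a (L u)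

variable {S : RS k U T} {S' : RS k V T'} {L : U →ₗ[k] V}

theorem Mor.al (h : Mor S S' L) (v : Vy U) : S'.al (lm L v) = lm L (S.al v) := by
  rw [al_apply, al_apply, map_sub, lm_lf (h.x 0), lm_lf (h.x 1), lm_y0, lm_y1]

theorem Mor.be (h : Mor S S' L) (v : Vy U) : S'.be (lm L v) = lm L (S.be v) := by
  rw [be_apply, be_apply, map_sub, lm_lf (h.d 0), lm_lf (h.d 1), lm_q0, lm_q1]

theorem Mor.Z (h : Mor S S' L) (v : Vy U) : S'.Z (lm L v) = lm L (S.Z v) := by
  simp only [Z_apply, map_sub, map_add, lm_lf (h.d _), lm_lf (h.x _), lm_q0, lm_q1, lm_y0, lm_y1]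

theorem Mor.phi1 (h : Mor S S' L) (u v : Vy U) :
    S'.phi1 (lm L u) (lm L v) = lm L (S.phi1 u v) := by
  simp only [RS.phi1, map_sub, map_add, h.Z, h.al, h.be]

theorem Mor.phi2 (h : Mor S S' L) (u v : Vy U) :
    S'.phi2 (lm L u) (lm L v) = lm L (S.phi2 u v) := by
  simp only [RS.phi2, map_add, h.Z, h.al, h.be]

/-- `E` is an extension of the quotient `O(a', b') / O(a', b'-1)` by `E1` -/
structure Exn (S : RS k U T) (L : U →ₗ[k] V) (E E1 : ℤ → ℤ → Submodule k V) (a' b' : ℤ) :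
    Prop where
  e1 : ∀ w d u, u ∈ E w d ↔ ∃ x ∈ E1 w d, ∃ c ∈ S.EO a' b' w d, u = x + L c
  e2 : ∀ w d c, c ∈ S.EO a' (b' - 1) w d → L c ∈ E1 w d
  e3 : ∀ w d c, c ∈ S.EO a' b' w d → L c ∈ E1 w d → c ∈ S.EO a' (b' - 1) w d

variable {E E1 : ℤ → ℤ → Submodule k V} {a' b' : ℤ}

theorem Exn.split (h : Exn S L E E1 a' b') {w d m : ℤ} {v : Vy V} (hv : v ∈ VVf (E w d) m) :
    ∃ x ∈ VVf (E1 w d) m, ∃ c ∈ VVf (S.EO a' b' w d) m, v = x + lm L c := by
  refine Submodule.span_induction (p := fun v _ => ∃ x ∈ VVf (E1 w d) m,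
    ∃ c ∈ VVf (S.EO a' b' w d) m, v = x + lm L c) ?_ ?_ ?_ ?_ hv
  · rintro _ ⟨i, j, u, hu, hij, rfl⟩
    obtain ⟨x, hx, c, hc, rfl⟩ := (h.e1 w d u).1 hu
    refine ⟨_, VVf_single hx hij, _, VVf_single hc hij, ?_⟩
    rw [lm_single, Finsupp.single_add]
  · exact ⟨0, Submodule.zero_mem _, 0, Submodule.zero_mem _, by simp⟩
  · rintro _ _ _ _ ⟨x, hx, c, hc, rfl⟩ ⟨x', hx', c', hc', rfl⟩
    refine ⟨x + x', Submodule.add_mem _ hx hx', c + c', Submodule.add_mem _ hc hc', ?_⟩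
    rw [map_add]
    abel
  · rintro r _ _ ⟨x, hx, c, hc, rfl⟩
    refine ⟨r • x, Submodule.smul_mem _ _ hx, r • c, Submodule.smul_mem _ _ hc, ?_⟩
    rw [map_smul, smul_add]

theorem Exn.ofE1 (h : Exn S L E E1 a' b') {w d m : ℤ} {v : Vy V} (hv : v ∈ VVf (E1 w d) m) :
    v ∈ VVf (E w d) m :=
  VVf_mono (fun x hx => (h.e1 w d x).2 ⟨x, hx, 0, Submodule.zero_mem _, by simp⟩) hv

theorem Exn.ofH (h : Exn S L E E1 a' b') {w d m : ℤ} {c : Vy U}
    (hc : c ∈ VVf (S.EO a' b' w d) m) : lm L c ∈ VVf (E w d) m :=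
  VVf_map (lm L) (fun i j u hu hij => by
    rw [lm_single]
    exact VVf_single ((h.e1 w d _).2 ⟨0, Submodule.zero_mem _, u, hu, by simp⟩) hij) hc

theorem Exn.low (h : Exn S L E E1 a' b') {w d m : ℤ} {c : Vy U}
    (hc : c ∈ VVf (S.EO a' (b' - 1) w d) m) : lm L c ∈ VVf (E1 w d) m :=
  VVf_map (lm L) (fun i j u hu hij => by
    rw [lm_single]
    exact VVf_single (h.e2 w d _ hu) hij) hc

theorem Exn.strict (h : Exn S L E E1 a' b') {w d m : ℤ} {c : Vy U}
    (hc : c ∈ VVf (S.EO a' b' w d) m) (h1 : lm L c ∈ VVf (E1 w d) m) :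
    c ∈ VVf (S.EO a' (b' - 1) w d) m := by
  rw [mem_VVf_iff] at hc h1 ⊢
  intro i j
  refine ⟨h.e3 _ _ _ (hc i j).1 ?_, (hc i j).2⟩
  have := (h1 i j).1
  rwa [lm_co] at this

end ext

section fam

variable {k : Type} [Field k] [CharZero k] {V T' : Type} [AddCommGroup V] [Module k V]
  [AddCommGroup T'] [Module k T'] {S' : RS k V T'} {L : Wo k →ₗ[k] V}
  {E E1 : ℤ → ℤ → Submodule k V} {a' b' : ℤ}

omit [CharZero k] in
theorem fam_al {S : RS k V T'} {F : ℤ → ℤ → Submodule k V} (hF : Fam S F) {w d m : ℤ} {v : Vy V}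
    (hv : v ∈ VVf (F w d) m) : S.al v ∈ VVf (F (w + 1) (d - 1)) (m + 1) := by
  rw [al_apply, lf_y1, lf_y0]
  exact Submodule.sub_mem _ (VVf_y1 (VVf_lf (hF.hX w d 0) hv)) (VVf_y0 (VVf_lf (hF.hX w d 1) hv))

omit [CharZero k] in
theorem fam_be {S : RS k V T'} {F : ℤ → ℤ → Submodule k V} (hF : Fam S F) {w d m : ℤ} {v : Vy V}
    (hv : v ∈ VVf (F w d) m) : S.be v ∈ VVf (F (w - 1) d) (m - 1) := by
  rw [be_apply, lf_q1, lf_q0]
  exact Submodule.sub_mem _ (VVf_q0 (VVf_lf (hF.hD w d 1) hv)) (VVf_q1 (VVf_lf (hF.hD w d 0) hv))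

omit [CharZero k] in
theorem fam_rho {S : RS k V T'} {F : ℤ → ℤ → Submodule k V} (hF : Fam S F) {w d m : ℤ} {v : Vy V}
    (hv : v ∈ VVf (F w d) m) : S.rho v ∈ VVf (F (w - 1) d) (m + 1) := by
  rw [rho_apply, lf_y1, lf_y0]
  exact Submodule.add_mem _ (VVf_y0 (VVf_lf (hF.hD w d 0) hv)) (VVf_y1 (VVf_lf (hF.hD w d 1) hv))

omit [CharZero k] in
theorem fam_Z {S : RS k V T'} {F : ℤ → ℤ → Submodule k V} (hF : Fam S F) {w d m : ℤ} {v : Vy V}
    (hv : v ∈ VVf (F w d) m) : S.Z v ∈ VVf (F w (d - 1)) m := by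
  have h0 : y0 k V (q0 k V v) + y1 k V (q1 k V v) ∈ VVf (F w (d - 1)) m := by
    rw [VVf_euler hv]
    refine Submodule.smul_mem _ _ (VVf_mono ?_ hv)
    have := hF.hm w (d - 1)
    rwa [sub_add_cancel] at this
  have h1 : ∀ a, lf (S.D a) (lf (S.X a) v) ∈ VVf (F w (d - 1)) m := fun a => by
    have := VVf_lf (hF.hD (w + 1) (d - 1) a) (VVf_lf (hF.hX w d a) hv)
    rwa [add_sub_cancel_right] at this
  have h2 : S.Z v = lf (S.D 0) (lf (S.X 0) v) + lf (S.D 1) (lf (S.X 1) v) -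
      (y0 k V (q0 k V v) + y1 k V (q1 k V v)) := by
    rw [Z_apply]
    abel
  rw [h2]
  exact Submodule.sub_mem _ (Submodule.add_mem _ (h1 0) (h1 1)) h0

omit [CharZero k] in
theorem fam_phi1 {S : RS k V T'} {F : ℤ → ℤ → Submodule k V} (hF : Fam S F) {w d m : ℤ}
    {u v : Vy V} (hu : u ∈ VVf (F w d) m) (hv : v ∈ VVf (F (w + 2) (d - 1)) (m + 2)) :
    S.phi1 u v ∈ VVf (F w (d - 1)) m := by
  have h0 : u ∈ VVf (F w (d - 1)) m := by
    refine VVf_mono ?_ hu
    have := hF.hm w (d - 1)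
    rwa [sub_add_cancel] at this
  have h1 := fam_be hF (fam_al hF hu)
  have h2 := fam_be hF (fam_be hF hv)
  rw [add_sub_cancel_right, add_sub_cancel_right] at h1
  rw [show w + 2 - 1 - 1 = w by ring, show m + 2 - 1 - 1 = m by ring] at h2
  exact Submodule.sub_mem _ (Submodule.sub_mem _ (Submodule.sub_mem _ (fam_Z hF hu)
    (Submodule.add_mem _ h0 h0)) h1) h2

omit [CharZero k] in
theorem fam_phi2 {S : RS k V T'} {F : ℤ → ℤ → Submodule k V} (hF : Fam S F) {w d m : ℤ}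
    {u v : Vy V} (hu : u ∈ VVf (F (w - 2) (d + 1)) (m - 2)) (hv : v ∈ VVf (F w d) m) :
    S.phi2 u v ∈ VVf (F w (d - 1)) m := by
  have h0 : v ∈ VVf (F w (d - 1)) m := by
    refine VVf_mono ?_ hv
    have := hF.hm w (d - 1)
    rwa [sub_add_cancel] at this
  have h1 := fam_al hF (fam_al hF hu)
  have h2 := fam_al hF (fam_be hF hv)
  rw [show w - 2 + 1 + 1 = w by ring, show m - 2 + 1 + 1 = m by ring,
    show d + 1 - 1 - 1 = d - 1 by ring] at h1
  rw [sub_add_cancel, sub_add_cancel] at h2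
  exact Submodule.add_mem _ (Submodule.add_mem _ (Submodule.add_mem _ (fam_Z hF hv)
    (Submodule.add_mem _ h0 h0)) h1) h2

/-- exactness for the extension -/
theorem Exn.famEx (h : Exn (dual k) L E E1 a' b') (hL : Mor (dual k) S' L) (hF : Fam S' E1)
    (hb : 1 ≤ b') (n : ℕ) (h1 : FamEx S' E1 n) : FamEx S' E n where
  t1 z hz hal := by
    obtain ⟨x, hx, c, hc, rfl⟩ := h.split hz
    rw [map_add, hL.al] at hal
    have hc1 : (dual k).al c ∈ VVf ((dual k).EO a' b' 1 1) ((n : ℤ) + 1) := by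
      have := fam_al (fam_EO (S := dual k) a' b') hc
      simpa using this
    have hx1 : S'.al x ∈ VVf (E1 1 1) ((n : ℤ) + 1) := by
      have := fam_al hF hx
      simpa using this
    have h2 : lm L ((dual k).al c) ∈ VVf (E1 1 1) ((n : ℤ) + 1) := by
      rw [← neg_eq_of_add_eq_zero_right hal]
      exact Submodule.neg_mem _ hx1
    have h3 := h.strict hc1 h2
    rw [VVf_EO (w' := -a' + 1) (d' := a' + b' - 3) (by ring) (by ring)] at h3
    rw [VVf_EO (w' := -a') (d' := a' + b' - 2) (by ring) (by ring)] at hc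
    have h4 := mod3 hc h3
    have h5 : lm L c ∈ VVf (E1 0 2) (n : ℤ) := h.low (by
      rwa [VVf_EO (w' := -a') (d' := a' + b' - 3) (by ring) (by ring)])
    refine h1.t1 _ (Submodule.add_mem _ hx h5) ?_
    rw [map_add, hL.al, hal]
  t2 u hu v hv e1 e2 := by
    obtain ⟨xu, hxu, cu, hcu, rfl⟩ := h.split hu
    obtain ⟨xv, hxv, cv, hcv, rfl⟩ := h.split hv
    have p1 : S'.phi1 (xu + lm L cu) (xv + lm L cv) = S'.phi1 xu xv +
        lm L ((dual k).phi1 cu cv) := by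
      rw [← hL.phi1]
      simp only [RS.phi1, map_add]
      abel
    have p2 : S'.phi2 (xu + lm L cu) (xv + lm L cv) = S'.phi2 xu xv +
        lm L ((dual k).phi2 cu cv) := by
      rw [← hL.phi2]
      simp only [RS.phi2, map_add]
      abel
    have m1 : S'.phi1 xu xv ∈ VVf (E1 (-1) 1) ((n : ℤ) - 1) := by
      have := fam_phi1 hF hxu (v := xv) (by
        rwa [show (-1 : ℤ) + 2 = 1 by ring, show (2 : ℤ) - 1 = 1 by ring,
          show (n : ℤ) - 1 + 2 = n + 1 by ring])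
      simpa using this
    have m2 : S'.phi2 xu xv ∈ VVf (E1 1 0) ((n : ℤ) + 1) := by
      have := fam_phi2 hF (u := xu) (v := xv) (w := 1) (d := 1) (m := (n : ℤ) + 1) (by
        rwa [show (1 : ℤ) - 2 = -1 by ring, show (1 : ℤ) + 1 = 2 by ring,
          show (n : ℤ) + 1 - 2 = n - 1 by ring]) hxv
      simpa using this
    have hEO := fam_EO (S := dual k) a' b'
    have c1 : (dual k).phi1 cu cv ∈ VVf ((dual k).EO a' b' (-1) 1) ((n : ℤ) - 1) := by
      have := fam_phi1 hEO hcu (v := cv) (by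
        rwa [show (-1 : ℤ) + 2 = 1 by ring, show (2 : ℤ) - 1 = 1 by ring,
          show (n : ℤ) - 1 + 2 = n + 1 by ring])
      simpa using this
    have c2 : (dual k).phi2 cu cv ∈ VVf ((dual k).EO a' b' 1 0) ((n : ℤ) + 1) := by
      have := fam_phi2 hEO (u := cu) (v := cv) (w := 1) (d := 1) (m := (n : ℤ) + 1) (by
        rwa [show (1 : ℤ) - 2 = -1 by ring, show (1 : ℤ) + 1 = 2 by ring,
          show (n : ℤ) + 1 - 2 = n - 1 by ring]) hcv
      simpa using this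
    rw [p1] at e1
    rw [p2] at e2
    have s1 := h.strict c1 (by
      rw [← neg_eq_of_add_eq_zero_right e1]
      exact Submodule.neg_mem _ m1)
    have s2 := h.strict c2 (by
      rw [← neg_eq_of_add_eq_zero_right e2]
      exact Submodule.neg_mem _ m2)
    rw [VVf_EO (w' := -a' - 1) (d' := a' + b' - 1) (by ring) (by ring)] at s1
    rw [VVf_EO (w' := -a' + 1) (d' := a' + b' - 2) (by ring) (by ring)] at s2
    have hcu' := hcu
    have hcv' := hcv
    rw [VVf_EO (w' := -a' - 1) (d' := a' + b' - 1) (by ring) (by ring)] at hcu'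
    rw [VVf_EO (w' := -a' + 1) (d' := a' + b' - 2) (by ring) (by ring)] at hcv'
    obtain ⟨zc, hzc, h3, h4⟩ := mod2 hcu' hcv' s1 s2
    have hzc1 : zc ∈ VVf ((dual k).EO a' b' 0 2) (n : ℤ) := by
      rwa [VVf_EO (w' := -a') (d' := a' + b' - 2) (by ring) (by ring)]
    have h3' : lm L (cu - (dual k).be zc) ∈ VVf (E1 (-1) 2) ((n : ℤ) - 1) := h.low (by
      rwa [VVf_EO (w' := -a' - 1) (d' := a' + b' - 2) (by ring) (by ring)])
    have h4' : lm L (cv + (dual k).al zc) ∈ VVf (E1 1 1) ((n : ℤ) + 1) := h.low (by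
      rwa [VVf_EO (w' := -a' + 1) (d' := a' + b' - 3) (by ring) (by ring)])
    have r1 : xu + lm L (cu - (dual k).be zc) = (xu + lm L cu) - S'.be (lm L zc) := by
      rw [hL.be, map_sub]
      abel
    have r2 : xv + lm L (cv + (dual k).al zc) = (xv + lm L cv) - -S'.al (lm L zc) := by
      rw [hL.al, map_add]
      abel
    obtain ⟨zx, hzx, h5, h6⟩ := h1.t2 _ (Submodule.add_mem _ hxu h3') _
      (Submodule.add_mem _ hxv h4') (by
        rw [r1, r2, phi1_sub, p1, e1, phi1_d3, sub_zero]) (by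
        rw [r1, r2, phi2_sub, p2, e2, phi2_d3, sub_zero])
    refine ⟨zx + lm L zc, Submodule.add_mem _ (h.ofE1 hzx) (h.ofH hzc1), ?_, ?_⟩
    · rw [map_add, ← h5, r1]
      abel
    · have h7 : xv + lm L cv = -S'.al zx - S'.al (lm L zc) := by
        rw [← h6, r2]
        abel
      rw [h7, map_add]
      abel
  t3 u hu v hv e1 := by
    obtain ⟨xu, hxu, cu, hcu, rfl⟩ := h.split hu
    obtain ⟨xv, hxv, cv, hcv, rfl⟩ := h.split hv
    have hEO := fam_EO (S := dual k) a' b'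
    have m1 : S'.al xu + S'.be xv ∈ VVf (E1 0 0) (n : ℤ) := by
      have a1 := fam_al hF hxu
      have a2 := fam_be hF hxv
      rw [show (-1 : ℤ) + 1 = 0 by ring, show (1 : ℤ) - 1 = 0 by ring, sub_add_cancel] at a1
      rw [show (1 : ℤ) - 1 = 0 by ring, add_sub_cancel_right] at a2
      exact Submodule.add_mem _ a1 a2
    have c1 : (dual k).al cu + (dual k).be cv ∈ VVf ((dual k).EO a' b' 0 0) (n : ℤ) := by
      have a1 := fam_al hEO hcu
      have a2 := fam_be hEO hcv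
      rw [show (-1 : ℤ) + 1 = 0 by ring, show (1 : ℤ) - 1 = 0 by ring, sub_add_cancel] at a1
      rw [show (1 : ℤ) - 1 = 0 by ring, add_sub_cancel_right] at a2
      exact Submodule.add_mem _ a1 a2
    have e2 : (S'.al xu + S'.be xv) + lm L ((dual k).al cu + (dual k).be cv) = 0 := by
      rw [← e1, map_add, map_add, map_add, hL.al, hL.be]
      abel
    have s1 := h.strict c1 (by
      rw [← neg_eq_of_add_eq_zero_right e2]
      exact Submodule.neg_mem _ m1)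
    rw [VVf_EO (w' := -a') (d' := a' + b' - 1) (by ring) (by ring)] at s1
    have hcu' := hcu
    have hcv' := hcv
    rw [VVf_EO (w' := -a' - 1) (d' := a' + b') (by ring) (by ring)] at hcu'
    rw [VVf_EO (w' := -a' + 1) (d' := a' + b' - 1) (by ring) (by ring)] at hcv'
    obtain ⟨uc, huc, vc, hvc, h3, h4⟩ := mod1 (by omega) hcu' hcv' s1
    have huc1 : uc ∈ VVf ((dual k).EO a' b' (-1) 2) ((n : ℤ) - 1) := by
      rwa [VVf_EO (w' := -a' - 1) (d' := a' + b' - 1) (by ring) (by ring)]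
    have hvc1 : vc ∈ VVf ((dual k).EO a' b' 1 1) ((n : ℤ) + 1) := by
      rwa [VVf_EO (w' := -a' + 1) (d' := a' + b' - 2) (by ring) (by ring)]
    have h3' : lm L (cu - (dual k).phi1 uc vc) ∈ VVf (E1 (-1) 1) ((n : ℤ) - 1) := h.low (by
      rwa [VVf_EO (w' := -a' - 1) (d' := a' + b' - 1) (by ring) (by ring)])
    have h4' : lm L (cv - (dual k).phi2 uc vc) ∈ VVf (E1 1 0) ((n : ℤ) + 1) := h.low (by
      rwa [VVf_EO (w' := -a' + 1) (d' := a' + b' - 2) (by ring) (by ring)])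
    have r1 : xu + lm L (cu - (dual k).phi1 uc vc) =
        (xu + lm L cu) - S'.phi1 (lm L uc) (lm L vc) := by
      rw [hL.phi1, map_sub]
      abel
    have r2 : xv + lm L (cv - (dual k).phi2 uc vc) =
        (xv + lm L cv) - S'.phi2 (lm L uc) (lm L vc) := by
      rw [hL.phi2, map_sub]
      abel
    have hd := d1_phi (S := S') (lm L uc) (lm L vc)
    obtain ⟨ux, hux, vx, hvx, h5, h6⟩ := h1.t3 _ (Submodule.add_mem _ hxu h3') _
      (Submodule.add_mem _ hxv h4') (by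
        rw [r1, r2, map_sub, map_sub, sub_add_sub_comm, e1, hd, sub_zero])
    refine ⟨ux + lm L uc, Submodule.add_mem _ (h.ofE1 hux) (h.ofH huc1), vx + lm L vc,
      Submodule.add_mem _ (h.ofE1 hvx) (h.ofH hvc1), ?_, ?_⟩
    · have q1 : S'.phi1 (ux + lm L uc) (vx + lm L vc) = S'.phi1 ux vx +
          S'.phi1 (lm L uc) (lm L vc) := by
        simp only [RS.phi1, map_add]
        abel
      rw [q1, ← h5, r1]
      abel
    · have q2 : S'.phi2 (ux + lm L uc) (vx + lm L vc) = S'.phi2 ux vx +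
          S'.phi2 (lm L uc) (lm L vc) := by
        simp only [RS.phi2, map_add]
        abel
      rw [q2, ← h6, r2]
      abel

/-- reduction to `E1` on `H^3` -/
theorem Exn.h3 (h : Exn (dual k) L E E1 a' b') (hL : Mor (dual k) S' L)
    (hb : 1 ≤ b') (hab : 1 ≤ a' + b') (n : ℕ) {z : Vy V} (hz : z ∈ VVf (E 0 0) (n : ℤ)) :
    ∃ x ∈ VVf (E1 0 0) (n : ℤ), ∃ u ∈ VVf (E (-1) 1) ((n : ℤ) - 1),
      ∃ v ∈ VVf (E 1 0) ((n : ℤ) + 1), z = x + (S'.al u + S'.be v) := by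
  obtain ⟨x, hx, c, hc, rfl⟩ := h.split hz
  rw [VVf_EO (w' := -a') (d' := a' + b') (by ring) (by ring)] at hc
  obtain ⟨uc, huc, vc, hvc, h3⟩ := mod0 (by omega) hab hc
  have huc1 : uc ∈ VVf ((dual k).EO a' b' (-1) 1) ((n : ℤ) - 1) := by
    rwa [VVf_EO (w' := -a' - 1) (d' := a' + b') (by ring) (by ring)]
  have hvc1 : vc ∈ VVf ((dual k).EO a' b' 1 0) ((n : ℤ) + 1) := by
    rwa [VVf_EO (w' := -a' + 1) (d' := a' + b' - 1) (by ring) (by ring)]
  have h3' : lm L (c - ((dual k).al uc + (dual k).be vc)) ∈ VVf (E1 0 0) (n : ℤ) := h.low (by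
    rwa [VVf_EO (w' := -a') (d' := a' + b' - 1) (by ring) (by ring)])
  refine ⟨_, Submodule.add_mem _ hx h3', lm L uc, h.ofH huc1, lm L vc, h.ofH hvc1, ?_⟩
  rw [map_sub, map_add, hL.al, hL.be]
  abel

theorem Exn.rho_inj {a b : ℤ} (h : Exn (dual k) L E (S'.EO a b) a' b') (hL : Mor (dual k) S' L)
    (hb : 1 ≤ b') (hab : 1 ≤ a' + b') (ha : a ≤ 1) (n : ℕ) {z u v : Vy V}
    (hz : z ∈ VVf (E 0 0) (n : ℤ)) (hr : S'.rho z = S'.al u + S'.be v) :
    ∃ u' ∈ VVf (E (-1) 1) ((n : ℤ) - 1), ∃ v' ∈ VVf (E 1 0) ((n : ℤ) + 1),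
      z = S'.al u' + S'.be v' := by
  obtain ⟨x, hx, u1, hu1, v1, hv1, rfl⟩ := h.h3 hL hb hab n hz
  have h1 : S'.rho x = S'.al (u - S'.rho u1) + S'.be (v - S'.rho v1) := by
    rw [map_sub, map_sub, ← rho_al, ← rho_be]
    rw [map_add, map_add] at hr
    have h2 : S'.rho x = S'.al u + S'.be v - (S'.rho (S'.al u1) + S'.rho (S'.be v1)) := by
      rw [← hr]
      abel
    rw [h2]
    abel
  obtain ⟨u2, hu2, v2, hv2, h3⟩ := rho_inj_EO n ha b hx h1
  refine ⟨u2 + u1, Submodule.add_mem _ (h.ofE1 hu2) hu1, v2 + v1,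
    Submodule.add_mem _ (h.ofE1 hv2) hv1, ?_⟩
  rw [h3, map_add, map_add]
  abel

theorem Exn.rho_surj {a b : ℤ} {E' : ℤ → ℤ → Submodule k V}
    (h : Exn (dual k) L E (S'.EO a b) a' b')
    (h' : Exn (dual k) L E' (S'.EO (a + 1) (b + 1)) (a' + 1) (b' + 1)) (hL : Mor (dual k) S' L)
    (hb' : 0 ≤ b') (hab' : -1 ≤ a' + b') (ha : a ≤ 0) (hb : 0 ≤ b) (hab : 0 ≤ a + b) (n : ℕ)
    {z' : Vy V} (hz' : z' ∈ VVf (E' 0 0) ((n : ℤ) + 1)) :
    ∃ z ∈ VVf (E 0 0) (n : ℤ), ∃ u ∈ VVf (E' (-1) 1) (n : ℤ), ∃ v ∈ VVf (E' 1 0) ((n : ℤ) + 2),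
      z' = S'.rho z + (S'.al u + S'.be v) := by
  have hz'' : z' ∈ VVf (E' 0 0) ((n + 1 : ℕ) : ℤ) := by
    push_cast
    exact hz'
  obtain ⟨x, hx, u1, hu1, v1, hv1, rfl⟩ := h'.h3 hL (by omega) (by omega) (n + 1) hz''
  rw [show ((n + 1 : ℕ) : ℤ) - 1 = n by push_cast; ring] at hu1
  rw [show ((n + 1 : ℕ) : ℤ) + 1 = (n : ℤ) + 2 by push_cast; ring] at hv1
  rw [Nat.cast_succ] at hx
  obtain ⟨z, hz, u, hu, v, hv, h2⟩ := rho_surj_EO n ha hb hab hx
  refine ⟨z, h.ofE1 hz, u + u1, Submodule.add_mem _ (h'.ofE1 hu) hu1, v + v1,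
    Submodule.add_mem _ (h'.ofE1 hv) hv1, ?_⟩
  rw [h2, map_add, map_add]
  abel

end fam

section inst

open P195E P195E.FOb CategoryTheory

variable {k : Type} [Field k] [CharZero k]

theorem EO_Dg (a b w d : ℤ) : (dual k).EO a b w d = Dg k (a - w) (b - d) := by
  rw [RS.EO, dual_W]
  congr 1 <;> ring

theorem piEO_mem {I : Type} {a b w d : ℤ} {u : I → Wo k} :
    u ∈ ((dual k).pi I).EO a b w d ↔ ∀ i, u i ∈ Dg k (a - w) (b - d) := by
  rw [← EO_Dg]
  exact Iff.rfl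

/-- the family of an object -/
theorem fam_ob (F : FOb k) : Fam ((dual k).pi F.I) F.filt where
  hX w d a u hu := by
    have := F.closed (-1) 1 w d (po k a) u (po_mem_Dg a) hu
    rw [sub_neg_eq_add] at this
    exact this
  hD w d a u hu := by
    have := F.closed 1 0 w d (xo k a) u (xo_mem_Dg a) hu
    rw [sub_zero] at this
    exact this
  hm w d u hu := by
    have := F.closed 0 1 w (d + 1) 1 u (Dg_mono (by omega) one_mem_Dg) hu
    simpa using this

/-- generation conditions of an object -/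
theorem famGen_ob {F : FOb k} (hx : SurjX F 0 0) (hp : SurjP F 0 0) :
    FamGen ((dual k).pi F.I) F.filt where
  gD u hu := by
    obtain ⟨v, w, hw, hv, h⟩ := hx u (by simpa using hu)
    exact ⟨v 0, by simpa using hv 0, v 1, by simpa using hv 1, w, by simpa using hw, h⟩
  gX u hu := by
    obtain ⟨v, w, hw, hv, h⟩ := hp u (by simpa using hu)
    exact ⟨v 0, by simpa using hv 0, v 1, by simpa using hv 1, w, by simpa using hw, h⟩

variable (k) in
/-- `C ↦ (C x_0, C x_1)` -/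
noncomputable def LF : Wo k →ₗ[k] (Fin 2 → Wo k) :=
  LinearMap.pi fun i => LinearMap.mulRight k (xo k i)

variable (k) in
/-- `C ↦ (C ∂_0, C ∂_1)` -/
noncomputable def LK : Wo k →ₗ[k] (Fin 2 → Wo k) :=
  LinearMap.pi fun i => LinearMap.mulRight k (po k i)

theorem LF_apply (C : Wo k) (i : Fin 2) : LF k C i = C * xo k i := rfl

theorem LK_apply (C : Wo k) (i : Fin 2) : LK k C i = C * po k i := rfl

theorem morF : Mor (dual k) ((dual k).pi (Fin 2)) (LF k) where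
  x a u := funext fun i => by
    rw [LF_apply, RS.pi_X, LF_apply, dual_X, dual_X, mul_assoc]
  d a u := funext fun i => by
    rw [LF_apply, RS.pi_D, LF_apply, dual_D, dual_D, mul_assoc]

theorem morK : Mor (dual k) ((dual k).pi (Fin 2)) (LK k) where
  x a u := funext fun i => by
    rw [LK_apply, RS.pi_X, LK_apply, dual_X, dual_X, mul_assoc]
  d a u := funext fun i => by
    rw [LK_apply, RS.pi_D, LK_apply, dual_D, dual_D, mul_assoc]

variable (k) in
/-- the family of `F(a, b)` -/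
noncomputable def EF (a b w d : ℤ) : Submodule k (Fin 2 → Wo k) := (FF k a b).filt w d

variable (k) in
/-- the family of `K(a, b)` -/
noncomputable def EK (a b w d : ℤ) : Submodule k (Fin 2 → Wo k) := (KK k a b).filt w d

omit [CharZero k] in
theorem mem_EF {a b w d : ℤ} {u : Fin 2 → Wo k} :
    u ∈ EF k a b w d ↔ ∃ A B C : Wo k, A ∈ Dg k (a - w) (b + 1 - d) ∧
      B ∈ Dg k (a - w) (b + 1 - d) ∧ C ∈ Dg k (a - 1 - w) (b + 2 - d) ∧
      u 0 = A + C * xo k 0 ∧ u 1 = B + C * xo k 1 := FF_mem_iff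

omit [CharZero k] in
theorem mem_EK {a b w d : ℤ} {u : Fin 2 → Wo k} :
    u ∈ EK k a b w d ↔ ∃ A B C : Wo k, A ∈ Dg k (a - w) (b + 1 - d) ∧
      B ∈ Dg k (a - w) (b + 1 - d) ∧ C ∈ Dg k (a + 1 - w) (b + 1 - d) ∧
      u 0 = A + C * po k 0 ∧ u 1 = B + C * po k 1 := KK_mem_iff

theorem exnF (a b : ℤ) : Exn (dual k) (LF k) (EF k a b)
    (((dual k).pi (Fin 2)).EO a (b + 1)) (a - 1) (b + 2) where
  e1 w d u := by
    rw [mem_EF]
    constructor
    · rintro ⟨A, B, C, hA, hB, hC, h0, h1⟩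
      refine ⟨![A, B], ?_, C, by rwa [EO_Dg], ?_⟩
      · rw [piEO_mem]
        intro i
        fin_cases i
        · exact hA
        · exact hB
      · funext i
        fin_cases i
        · exact h0
        · exact h1
    · rintro ⟨x, hx, C, hC, rfl⟩
      rw [piEO_mem] at hx
      rw [EO_Dg] at hC
      exact ⟨x 0, x 1, C, hx 0, hx 1, hC, rfl, rfl⟩
  e2 w d c hc := by
    rw [EO_Dg] at hc
    rw [piEO_mem]
    intro i
    have := Dg_mul_xo i hc
    rwa [show a - 1 - w + 1 = a - w by ring, show b + 2 - 1 - d = b + 1 - d by ring] at this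
  e3 w d c hc h := by
    rw [EO_Dg] at hc ⊢
    rw [piEO_mem] at h
    have h0 := h 0
    rw [LF_apply] at h0
    rw [show b + 2 - 1 - d = b + 1 - d by ring]
    exact mul_xo_mem 0 hc (by rwa [show a - 1 - w + 1 = a - w by ring])

theorem mul_po_mem' {w d w' d' : ℤ} (a : Fin 2) {T : Wo k} (hT : T ∈ Dg k w' d')
    (h : T * po k a ∈ Dg k w d) : T ∈ Dg k (w + 1) (d - 1) := by
  rw [Dg_eq_NO] at hT h ⊢
  obtain ⟨p, _, rfl⟩ := hT
  obtain ⟨q, hq, h1⟩ := h
  rw [← NO_xi_mul] at h1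
  have h2 := NO_injective h1
  refine ⟨p, FS_of_xi_mul a ?_, rfl⟩
  rwa [← h2]

theorem exnK (a b : ℤ) : Exn (dual k) (LK k) (EK k a b)
    (((dual k).pi (Fin 2)).EO a (b + 1)) (a + 1) (b + 1) where
  e1 w d u := by
    rw [mem_EK]
    constructor
    · rintro ⟨A, B, C, hA, hB, hC, h0, h1⟩
      refine ⟨![A, B], ?_, C, by rwa [EO_Dg], ?_⟩
      · rw [piEO_mem]
        intro i
        fin_cases i
        · exact hA
        · exact hB
      · funext i
        fin_cases i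
        · exact h0
        · exact h1
    · rintro ⟨x, hx, C, hC, rfl⟩
      rw [piEO_mem] at hx
      rw [EO_Dg] at hC
      exact ⟨x 0, x 1, C, hx 0, hx 1, hC, rfl, rfl⟩
  e2 w d c hc := by
    rw [EO_Dg] at hc
    rw [piEO_mem]
    intro i
    have := Dg_mul_po i hc
    rwa [show a + 1 - w - 1 = a - w by ring, show b + 1 - 1 - d + 1 = b + 1 - d by ring] at this
  e3 w d c hc h := by
    rw [EO_Dg] at hc ⊢
    rw [piEO_mem] at h
    have h0 := h 0
    rw [LK_apply] at h0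
    have := mul_po_mem' 0 hc h0
    rwa [show a - w + 1 = a + 1 - w by ring, show b + 1 - d - 1 = b + 1 - 1 - d by ring] at this

omit [CharZero k] in
theorem EF_shift (a b w d : ℤ) : EF k a b (w - 1) (d - 1) = EF k (a + 1) (b + 1) w d := by
  ext u
  rw [mem_EF, mem_EF]
  rw [show a - (w - 1) = a + 1 - w by ring, show b + 1 - (d - 1) = b + 1 + 1 - d by ring,
    show a - 1 - (w - 1) = a + 1 - 1 - w by ring, show b + 2 - (d - 1) = b + 1 + 2 - d by ring]

omit [CharZero k] in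
theorem EK_shift (a b w d : ℤ) : EK k a b (w - 1) (d - 1) = EK k (a + 1) (b + 1) w d := by
  ext u
  rw [mem_EK, mem_EK]
  rw [show a - (w - 1) = a + 1 - w by ring, show b + 1 - (d - 1) = b + 1 + 1 - d by ring,
    show a + 1 - (w - 1) = a + 1 + 1 - w by ring]

/-- T1, T2, T3 for the target `F(a, b)` -/
theorem famEx_EF {a b : ℤ} (ha : a ≤ 1) (hb : -1 ≤ b) (n : ℕ) :
    FamEx ((dual k).pi (Fin 2)) (EF k a b) n :=
  (exnF a b).famEx morF (fam_EO a (b + 1)) (by omega) n (famEx_EO n ha (b + 1))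

/-- T1, T2, T3 for the target `K(a, b)` -/
theorem famEx_EK {a b : ℤ} (ha : a ≤ 1) (hb : 0 ≤ b) (n : ℕ) :
    FamEx ((dual k).pi (Fin 2)) (EK k a b) n :=
  (exnK a b).famEx morK (fam_EO a (b + 1)) (by omega) n (famEx_EO n ha (b + 1))

/-- `rho` is injective on `H^3`, target `F` -/
theorem rho_inj_EF (n : ℕ) {z u v : Vy (Fin 2 → Wo k)}
    (hz : z ∈ VVf (EF k 0 0 0 0) (n : ℤ))
    (hr : ((dual k).pi (Fin 2)).rho z = ((dual k).pi (Fin 2)).al u + ((dual k).pi (Fin 2)).be v) :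
    ∃ u' ∈ VVf (EF k 0 0 (-1) 1) ((n : ℤ) - 1),
      ∃ v' ∈ VVf (EF k 0 0 1 0) ((n : ℤ) + 1),
      z = ((dual k).pi (Fin 2)).al u' + ((dual k).pi (Fin 2)).be v' :=
  (exnF 0 0).rho_inj morF (by omega) (by omega) (by omega) n hz hr

/-- `rho` is injective on `H^3`, target `K` -/
theorem rho_inj_EK (n : ℕ) {z u v : Vy (Fin 2 → Wo k)}
    (hz : z ∈ VVf (EK k 0 0 0 0) (n : ℤ))
    (hr : ((dual k).pi (Fin 2)).rho z = ((dual k).pi (Fin 2)).al u + ((dual k).pi (Fin 2)).be v) :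
    ∃ u' ∈ VVf (EK k 0 0 (-1) 1) ((n : ℤ) - 1),
      ∃ v' ∈ VVf (EK k 0 0 1 0) ((n : ℤ) + 1),
      z = ((dual k).pi (Fin 2)).al u' + ((dual k).pi (Fin 2)).be v' :=
  (exnK 0 0).rho_inj morK (by omega) (by omega) (by omega) n hz hr

/-- `rho` is surjective on `H^3`, target `F` -/
theorem rho_surj_EF (n : ℕ) {z' : Vy (Fin 2 → Wo k)}
    (hz' : z' ∈ VVf (EF k 1 1 0 0) ((n : ℤ) + 1)) :
    ∃ z ∈ VVf (EF k 0 0 0 0) (n : ℤ),
      ∃ u ∈ VVf (EF k 1 1 (-1) 1) (n : ℤ),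
      ∃ v ∈ VVf (EF k 1 1 1 0) ((n : ℤ) + 2),
      z' = ((dual k).pi (Fin 2)).rho z +
        (((dual k).pi (Fin 2)).al u + ((dual k).pi (Fin 2)).be v) :=
  (exnF 0 0).rho_surj (E' := EF k 1 1) (exnF 1 1) morF (by omega) (by omega) (by omega) (by omega)
    (by omega) n hz'

/-- `rho` is surjective on `H^3`, target `K` -/
theorem rho_surj_EK (n : ℕ) {z' : Vy (Fin 2 → Wo k)}
    (hz' : z' ∈ VVf (EK k 1 1 0 0) ((n : ℤ) + 1)) :
    ∃ z ∈ VVf (EK k 0 0 0 0) (n : ℤ),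
      ∃ u ∈ VVf (EK k 1 1 (-1) 1) (n : ℤ),
      ∃ v ∈ VVf (EK k 1 1 1 0) ((n : ℤ) + 2),
      z' = ((dual k).pi (Fin 2)).rho z +
        (((dual k).pi (Fin 2)).al u + ((dual k).pi (Fin 2)).be v) :=
  (exnK 0 0).rho_surj (E' := EK k 1 1) (exnK 1 1) morK (by omega) (by omega) (by omega) (by omega)
    (by omega) n hz'

/-! ### final forms, for the objects -/

theorem famEx_FF (n : ℕ) : FamEx ((dual k).pi (FF k 0 0).I) (FF k 0 0).filt n :=
  famEx_EF (by omega) (by omega) n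

theorem famEx_KK (n : ℕ) : FamEx ((dual k).pi (KK k 0 0).I) (KK k 0 0).filt n :=
  famEx_EK (by omega) (by omega) n

theorem famEx_PhiFF (n : ℕ) :
    FamEx ((dual k).pi (Phi.obj (FF k 0 0)).I) (Phi.obj (FF k 0 0)).filt n := by
  have h : (fun w d => EF k 0 0 (w - 1) (d - 1)) = EF k 1 1 := by
    funext w d
    exact (EF_shift 0 0 w d).trans (by rw [zero_add])
  have h2 : FamEx ((dual k).pi (Fin 2)) (fun w d => EF k 0 0 (w - 1) (d - 1)) n := by
    rw [h]
    exact famEx_EF (by omega) (by omega) n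
  exact h2

theorem famEx_PhiKK (n : ℕ) :
    FamEx ((dual k).pi (Phi.obj (KK k 0 0)).I) (Phi.obj (KK k 0 0)).filt n := by
  have h : (fun w d => EK k 0 0 (w - 1) (d - 1)) = EK k 1 1 := by
    funext w d
    exact (EK_shift 0 0 w d).trans (by rw [zero_add])
  have h2 : FamEx ((dual k).pi (Fin 2)) (fun w d => EK k 0 0 (w - 1) (d - 1)) n := by
    rw [h]
    exact famEx_EK (by omega) (by omega) n
  exact h2

theorem famGen_FF : FamGen ((dual k).pi (FF k 0 0).I) (FF k 0 0).filt :=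
  famGen_ob (surjX_FF (by omega)) (surjP_FF (by omega) (by omega))

theorem famGen_KK : FamGen ((dual k).pi (KK k 0 0).I) (KK k 0 0).filt :=
  famGen_ob (surjX_KK (by omega) (by omega)) (surjP_KK (by omega))

theorem famGen_PhiFF : FamGen ((dual k).pi (Phi.obj (FF k 0 0)).I) (Phi.obj (FF k 0 0)).filt :=
  famGen_ob (surjX_Phi (surjX_FF (by omega))) (surjP_Phi (surjP_FF (by omega) (by omega)))

theorem famGen_PhiKK : FamGen ((dual k).pi (Phi.obj (KK k 0 0)).I) (Phi.obj (KK k 0 0)).filt :=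
  famGen_ob (surjX_Phi (surjX_KK (by omega) (by omega))) (surjP_Phi (surjP_KK (by omega)))

end inst

end Vale.Agent.P195R
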