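import Vale.Agent.P195R.Zero
import Vale.Agent.P195A.FactL

/-! # P195: symbols, the bigraded instance and the symbol map -/

namespace Vale.Agent.P195R

open MvPolynomial P195A

variable (k : Type) [Field k]

/-- polynomials supported on `P` -/
def MS (P : (Fin 2 ⊕ Fin 2 →₀ ℕ) → Prop) : Submodule k (Sy k) where
  carrier := {p | ∀ m, coeff m p ≠ 0 → P m}
  zero_mem' := by simp
  add_mem' := by
    intro p q hp hq m hm
    rw [coeff_add] at hm
    by_cases h : coeff m p = 0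
    · rw [h, zero_add] at hm
      exact hq m hm
    · exact hp m h
  smul_mem' := by
    intro c p hp m hm
    rw [coeff_smul] at hm
    exact hp m fun h => hm (by rw [h, smul_zero])

/-- number of `x` factors -/
def xdm (m : Fin 2 ⊕ Fin 2 →₀ ℕ) : ℤ := (m (Sum.inl 0) : ℤ) + m (Sum.inl 1)

/-- bidegree (order, degree in x) -/
def Gs (a b : ℤ) : Submodule k (Sy k) := MS k fun m => odm m = a ∧ xdm m = b

variable {k}

theorem mem_Gs {a b : ℤ} {p : Sy k} :
    p ∈ Gs k a b ↔ ∀ m, coeff m p ≠ 0 → odm m = a ∧ xdm m = b := Iff.rfl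

theorem coeff_X_mul_single (i : Fin 2 ⊕ Fin 2) (p : Sy k) (m : Fin 2 ⊕ Fin 2 →₀ ℕ) :
    coeff (Finsupp.single i 1 + m) (X i * p) = coeff m p :=
  coeff_X_mul m i p

theorem coeff_X_mul_ne {i : Fin 2 ⊕ Fin 2} {p : Sy k} {m : Fin 2 ⊕ Fin 2 →₀ ℕ}
    (h : coeff m (X i * p) ≠ 0) : ∃ m', m = Finsupp.single i 1 + m' ∧ coeff m' p ≠ 0 := by
  classical
  rw [coeff_X_mul'] at h
  by_cases hi : i ∈ m.support
  · rw [if_pos hi] at h
    refine ⟨m - Finsupp.single i 1, ?_, h⟩
    rw [add_tsub_cancel_of_le]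
    rw [Finsupp.single_le_iff]
    exact Nat.one_le_iff_ne_zero.2 (Finsupp.mem_support_iff.1 hi)
  · rw [if_neg hi] at h
    exact absurd rfl h

theorem MS_mul {P P' : (Fin 2 ⊕ Fin 2 →₀ ℕ) → Prop} {i : Fin 2 ⊕ Fin 2} {p : Sy k}
    (hp : p ∈ MS k P) (h : ∀ m, P m → P' (Finsupp.single i 1 + m)) : X i * p ∈ MS k P' := by
  intro m hm
  obtain ⟨m', rfl, h'⟩ := coeff_X_mul_ne hm
  exact h _ (hp _ h')

theorem MS_of_mul {P P' : (Fin 2 ⊕ Fin 2 →₀ ℕ) → Prop} {i : Fin 2 ⊕ Fin 2} {p : Sy k}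
    (hp : X i * p ∈ MS k P') (h : ∀ m, P' (Finsupp.single i 1 + m) → P m) : p ∈ MS k P := by
  intro m hm
  refine h m (hp _ ?_)
  rwa [coeff_X_mul_single]

theorem MS_split {P P' : (Fin 2 ⊕ Fin 2 →₀ ℕ) → Prop} {i j : Fin 2 ⊕ Fin 2} {p : Sy k}
    (hp : p ∈ MS k P) (h0 : ∀ m, P m → m i ≠ 0 ∨ m j ≠ 0)
    (hi : ∀ m, P (Finsupp.single i 1 + m) → P' m) (hj : ∀ m, P (Finsupp.single j 1 + m) → P' m) :
    ∃ q ∈ MS k P', ∃ r ∈ MS k P', p = X i * q + X j * r := by
  classical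
  have key : ∀ m, P m → ∀ c : k, ∃ q ∈ MS k P', ∃ r ∈ MS k P',
      (monomial m c : Sy k) = X i * q + X j * r := by
    intro m hm c
    have gen : ∀ l : Fin 2 ⊕ Fin 2, m l ≠ 0 → (∀ m, P (Finsupp.single l 1 + m) → P' m) →
        ∃ q ∈ MS k P', (monomial m c : Sy k) = X l * q := by
      intro l hl hP
      obtain ⟨m', rfl⟩ : ∃ m', m = Finsupp.single l 1 + m' :=
        ⟨m - Finsupp.single l 1, by
          rw [add_tsub_cancel_of_le]
          rw [Finsupp.single_le_iff]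
          omega⟩
      refine ⟨monomial m' c, ?_, ?_⟩
      · intro m'' h''
        rw [coeff_monomial] at h''
        by_cases e : m' = m''
        · exact e ▸ hP _ hm
        · rw [if_neg e] at h''
          exact absurd rfl h''
      · rw [X, monomial_mul, one_mul]
    rcases h0 m hm with h | h
    · obtain ⟨q, hq, h1⟩ := gen i h hi
      exact ⟨q, hq, 0, Submodule.zero_mem _, by rw [mul_zero, add_zero, h1]⟩
    · obtain ⟨q, hq, h1⟩ := gen j h hj
      exact ⟨0, Submodule.zero_mem _, q, hq, by rw [mul_zero, zero_add, h1]⟩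
  choose! F hF G hG hFG using key
  refine ⟨∑ m ∈ p.support, F m (coeff m p), Submodule.sum_mem _ fun m hm =>
    hF m (hp m (mem_support_iff.1 hm)) _, ∑ m ∈ p.support, G m (coeff m p),
    Submodule.sum_mem _ fun m hm => hG m (hp m (mem_support_iff.1 hm)) _, ?_⟩
  rw [Finset.mul_sum, Finset.mul_sum, ← Finset.sum_add_distrib]
  conv_lhs => rw [p.as_sum]
  exact Finset.sum_congr rfl fun m hm => hFG m (hp m (mem_support_iff.1 hm)) _

theorem odm_inr (i : Fin 2) (m : Fin 2 ⊕ Fin 2 →₀ ℕ) :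
    odm (Finsupp.single (Sum.inr i) 1 + m) = odm m + 1 := by
  fin_cases i <;> simp [odm] <;> ring

theorem odm_inl (i : Fin 2) (m : Fin 2 ⊕ Fin 2 →₀ ℕ) :
    odm (Finsupp.single (Sum.inl i) 1 + m) = odm m := by
  fin_cases i <;> simp [odm]

theorem xdm_inr (i : Fin 2) (m : Fin 2 ⊕ Fin 2 →₀ ℕ) :
    xdm (Finsupp.single (Sum.inr i) 1 + m) = xdm m := by
  fin_cases i <;> simp [xdm]

theorem xdm_inl (i : Fin 2) (m : Fin 2 ⊕ Fin 2 →₀ ℕ) :
    xdm (Finsupp.single (Sum.inl i) 1 + m) = xdm m + 1 := by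
  fin_cases i <;> simp [xdm] <;> ring

theorem wtm_eq (m : Fin 2 ⊕ Fin 2 →₀ ℕ) : wtm m = xdm m - odm m := by
  simp only [wtm, xdm, odm]
  ring

variable (k)

/-- the commuting system: `X_a` = multiplication by `ξ_a`, `D_a` = multiplication by `x_a` -/
noncomputable def O0 : Ops k (Sy k) where
  X0 := LinearMap.mulLeft k (X (Sum.inr 0))
  X1 := LinearMap.mulLeft k (X (Sum.inr 1))
  D0 := LinearMap.mulLeft k (X (Sum.inl 0))
  D1 := LinearMap.mulLeft k (X (Sum.inl 1))
  t := 0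
  hXX z := by simp only [LinearMap.mulLeft_apply]; ring
  hDD z := by simp only [LinearMap.mulLeft_apply]; ring
  h01 z := by simp only [LinearMap.mulLeft_apply]; ring
  h10 z := by simp only [LinearMap.mulLeft_apply]; ring
  h00 z := by simp only [LinearMap.mulLeft_apply, zero_smul, add_zero]; ring
  h11 z := by simp only [LinearMap.mulLeft_apply, zero_smul, add_zero]; ring

theorem grd0 : Grd (O0 k) (Gs k) where
  t0 := rfl
  x0 a b z hz := MS_mul hz fun m hm => by rw [odm_inr, xdm_inr]; exact ⟨by omega, hm.2⟩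
  x1 a b z hz := MS_mul hz fun m hm => by rw [odm_inr, xdm_inr]; exact ⟨by omega, hm.2⟩
  d0 a b z hz := MS_mul hz fun m hm => by rw [odm_inl, xdm_inl]; exact ⟨hm.1, by omega⟩
  d1 a b z hz := MS_mul hz fun m hm => by rw [odm_inl, xdm_inl]; exact ⟨hm.1, by omega⟩
  ix a b z _ h := (mul_eq_zero.1 (h : X (Sum.inr 1) * z = 0)).resolve_left (X_ne_zero _)
  id a b z _ h := (mul_eq_zero.1 (h : X (Sum.inl 0) * z = 0)).resolve_left (X_ne_zero _)
  kx a b p q hp hq h := by
    have h1 : X (Sum.inr 0) * p + X (Sum.inr 1) * (-q) = 0 := by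
      have h2 : X (Sum.inr 0) * p = X (Sum.inr 1) * q := h
      rw [h2]
      ring
    obtain ⟨r, h2, h3⟩ := X_koszul (by simp) h1
    refine ⟨r, ?_, h2, neg_injective h3⟩
    refine MS_of_mul (i := Sum.inr 1) (h2 ▸ hp) fun m hm => ?_
    rw [odm_inr, xdm_inr] at hm
    exact ⟨by omega, hm.2⟩
  kd a b p q hp hq h := by
    have h1 : X (Sum.inl 0) * p + X (Sum.inl 1) * (-q) = 0 := by
      have h2 : X (Sum.inl 0) * p = X (Sum.inl 1) * q := h
      rw [h2]
      ring
    obtain ⟨r, h2, h3⟩ := X_koszul (by simp) h1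
    refine ⟨r, ?_, h2, neg_injective h3⟩
    refine MS_of_mul (i := Sum.inl 1) (h2 ▸ hp) fun m hm => ?_
    rw [odm_inl, xdm_inl] at hm
    exact ⟨hm.1, by omega⟩
  sx a b z ha hz := by
    refine MS_split hz (fun m hm => ?_) (fun m hm => ?_) (fun m hm => ?_)
    · have := hm.1
      unfold odm at this
      omega
    · rw [odm_inr, xdm_inr] at hm
      exact ⟨by omega, hm.2⟩
    · rw [odm_inr, xdm_inr] at hm
      exact ⟨by omega, hm.2⟩
  sd a b z hb hz := by
    refine MS_split hz (fun m hm => ?_) (fun m hm => ?_) (fun m hm => ?_)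
    · have := hm.2
      unfold xdm at this
      omega
    · rw [odm_inl, xdm_inl] at hm
      exact ⟨hm.1, by omega⟩
    · rw [odm_inl, xdm_inl] at hm
      exact ⟨hm.1, by omega⟩

/-! ### the symbol map -/

/-- the part of order exactly `e` -/
noncomputable def topc (e : ℤ) : Sy k →ₗ[k] Sy k := (basisMonomials (Fin 2 ⊕ Fin 2) k).constr k
  (fun m => if odm m = e then monomial m 1 else 0)

variable {k}

theorem topc_monomial (e : ℤ) (m : Fin 2 ⊕ Fin 2 →₀ ℕ) :
    topc k e (monomial m 1) = if odm m = e then monomial m 1 else 0 := by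
  have h := (basisMonomials (Fin 2 ⊕ Fin 2) k).constr_basis k
    (fun m => if odm m = e then (monomial m 1 : Sy k) else 0) m
  rwa [coe_basisMonomials] at h

theorem sy_ext {M : Type*} [AddCommGroup M] [Module k M] {f g : Sy k →ₗ[k] M}
    (h : ∀ m, f (monomial m 1) = g (monomial m 1)) (p : Sy k) : f p = g p := by
  have : f = g := (basisMonomials (Fin 2 ⊕ Fin 2) k).ext fun m => by
    rw [coe_basisMonomials]
    exact h m
  rw [this]

theorem coeff_topc (e : ℤ) (p : Sy k) (m : Fin 2 ⊕ Fin 2 →₀ ℕ) :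
    coeff m (topc k e p) = if odm m = e then coeff m p else 0 := by
  classical
  by_cases he : odm m = e
  · rw [if_pos he]
    refine sy_ext (f := lcoeff k m ∘ₗ topc k e) (g := lcoeff k m) (fun m' => ?_) p
    show coeff m (topc k e (monomial m' 1)) = coeff m (monomial m' 1)
    rw [topc_monomial]
    by_cases h : odm m' = e
    · rw [if_pos h]
    · rw [if_neg h, coeff_zero, coeff_monomial, if_neg]
      rintro rfl
      exact h he
  · rw [if_neg he]
    refine sy_ext (f := lcoeff k m ∘ₗ topc k e) (g := 0) (fun m' => ?_) p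
    show coeff m (topc k e (monomial m' 1)) = 0
    rw [topc_monomial]
    by_cases h : odm m' = e
    · rw [if_pos h, coeff_monomial, if_neg]
      rintro rfl
      exact he h
    · rw [if_neg h, coeff_zero]

theorem coeff_X_mul_zero {i : Fin 2 ⊕ Fin 2} (p : Sy k) {m : Fin 2 ⊕ Fin 2 →₀ ℕ}
    (h : ¬ ∃ m', m = Finsupp.single i 1 + m') : coeff m (X i * p) = 0 := by
  by_contra h1
  obtain ⟨m', h2, _⟩ := coeff_X_mul_ne h1
  exact h ⟨m', h2⟩

theorem topc_inl (e : ℤ) (i : Fin 2) (p : Sy k) :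
    topc k e (X (Sum.inl i) * p) = X (Sum.inl i) * topc k e p := by
  ext m
  rw [coeff_topc]
  by_cases h : ∃ m', m = Finsupp.single (Sum.inl i) 1 + m'
  · obtain ⟨m', rfl⟩ := h
    rw [coeff_X_mul_single, coeff_X_mul_single, coeff_topc, odm_inl]
  · rw [coeff_X_mul_zero _ h, coeff_X_mul_zero _ h, ite_self]

theorem topc_inr (e : ℤ) (i : Fin 2) (p : Sy k) :
    topc k (e + 1) (X (Sum.inr i) * p) = X (Sum.inr i) * topc k e p := by
  ext m
  rw [coeff_topc]
  by_cases h : ∃ m', m = Finsupp.single (Sum.inr i) 1 + m'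
  · obtain ⟨m', rfl⟩ := h
    rw [coeff_X_mul_single, coeff_X_mul_single, coeff_topc, odm_inr]
    by_cases h1 : odm m' = e
    · rw [if_pos h1, if_pos (by omega)]
    · rw [if_neg h1, if_neg (by omega)]
  · rw [coeff_X_mul_zero _ h, coeff_X_mul_zero _ h, ite_self]

theorem topc_low {w d e : ℤ} {p : Sy k} (hp : p ∈ FS k w d) (h : d < e) : topc k e p = 0 := by
  ext m
  rw [coeff_topc, coeff_zero]
  by_cases h1 : odm m = e
  · rw [if_pos h1]
    by_contra h2
    have := (hp m (mem_support_iff.2 h2)).2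
    omega
  · rw [if_neg h1]

theorem topc_Gs {w e : ℤ} {p : Sy k} (hp : p ∈ FS k w e) : topc k e p ∈ Gs k e (w + e) := by
  intro m hm
  rw [coeff_topc] at hm
  by_cases h1 : odm m = e
  · rw [if_pos h1] at hm
    have h2 := (hp m (mem_support_iff.2 hm)).1
    rw [wtm_eq] at h2
    exact ⟨h1, by omega⟩
  · rw [if_neg h1] at hm
    exact absurd rfl hm

theorem topc_zero {w e : ℤ} {p : Sy k} (hp : p ∈ FS k w e) (h : topc k e p = 0) :
    p ∈ FS k w (e - 1) := by
  intro m hm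
  have h1 := hp m hm
  refine ⟨h1.1, ?_⟩
  by_contra h2
  have h3 : odm m = e := by omega
  have h4 := congrArg (coeff m) h
  rw [coeff_topc, if_pos h3, coeff_zero] at h4
  exact mem_support_iff.1 hm h4

theorem topc_self {e b : ℤ} {p : Sy k} (hp : p ∈ Gs k e b) : topc k e p = p := by
  ext m
  rw [coeff_topc]
  by_cases h1 : odm m = e
  · rw [if_pos h1]
  · rw [if_neg h1]
    by_contra h2
    exact h1 (hp m (Ne.symm h2)).1

theorem Gs_FS {w e : ℤ} {p : Sy k} (hp : p ∈ Gs k e (w + e)) : p ∈ FS k w e := by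
  intro m hm
  have h := hp m (mem_support_iff.1 hm)
  rw [wtm_eq]
  exact ⟨by omega, by omega⟩

variable [CharZero k]

variable (k) in
theorem exists_NI : ∃ g : Wo k →ₗ[k] Sy k, g ∘ₗ NO k = LinearMap.id :=
  (NO k).exists_leftInverse_of_injective (LinearMap.ker_eq_bot.2 NO_injective)

variable (k) in
/-- a left inverse of normal ordering -/
noncomputable def NI : Wo k →ₗ[k] Sy k := (exists_NI k).choose

theorem NI_NO (p : Sy k) : NI k (NO k p) = p := LinearMap.congr_fun (exists_NI k).choose_spec p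

variable (k) in
/-- the symbol of order `e` -/
noncomputable def sy (e : ℤ) : Wo k →ₗ[k] Sy k := topc k e ∘ₗ NI k

theorem sy_mem {w e : ℤ} {T : Wo k} (hT : T ∈ Dg k w e) : sy k e T ∈ Gs k e (w + e) := by
  rw [Dg_eq_NO] at hT
  obtain ⟨p, hp, rfl⟩ := hT
  show topc k e (NI k (NO k p)) ∈ _
  rw [NI_NO]
  exact topc_Gs hp

theorem sy_low {w d e : ℤ} {T : Wo k} (hT : T ∈ Dg k w d) (h : d < e) : sy k e T = 0 := by
  rw [Dg_eq_NO] at hT
  obtain ⟨p, hp, rfl⟩ := hT
  show topc k e (NI k (NO k p)) = 0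
  rw [NI_NO]
  exact topc_low hp h

theorem sy_zero {w e : ℤ} {T : Wo k} (hT : T ∈ Dg k w e) (h : sy k e T = 0) :
    T ∈ Dg k w (e - 1) := by
  rw [Dg_eq_NO] at hT
  obtain ⟨p, hp, rfl⟩ := hT
  have h1 : topc k e (NI k (NO k p)) = 0 := h
  rw [NI_NO] at h1
  rw [Dg_eq_NO]
  exact ⟨p, topc_zero hp h1, rfl⟩

theorem sy_NO {e b : ℤ} {p : Sy k} (hp : p ∈ Gs k e b) : sy k e (NO k p) = p := by
  show topc k e (NI k (NO k p)) = p
  rw [NI_NO, topc_self hp]

theorem NO_mem {w e : ℤ} {p : Sy k} (hp : p ∈ Gs k e (w + e)) : NO k p ∈ Dg k w e := by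
  rw [Dg_eq_NO]
  exact ⟨p, Gs_FS hp, rfl⟩

theorem sy_po {w e : ℤ} (a : Fin 2) {T : Wo k} (hT : T ∈ Dg k w e) :
    sy k (e + 1) (po k a * T) = X (Sum.inr a) * sy k e T := by
  rw [Dg_eq_NO] at hT
  obtain ⟨p, hp, rfl⟩ := hT
  rw [po_mul_NO]
  show topc k (e + 1) (NI k (NO k _)) = X (Sum.inr a) * topc k e (NI k (NO k p))
  rw [NI_NO, NI_NO, map_add, topc_inr, topc_low (FS_pderiv_x a hp) (by omega), add_zero]

theorem sy_xo {e : ℤ} {w d : ℤ} (a : Fin 2) {T : Wo k} (hT : T ∈ Dg k w d) :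
    sy k e (xo k a * T) = X (Sum.inl a) * sy k e T := by
  rw [Dg_eq_NO] at hT
  obtain ⟨p, hp, rfl⟩ := hT
  rw [← NO_x_mul]
  show topc k e (NI k (NO k _)) = X (Sum.inl a) * topc k e (NI k (NO k p))
  rw [NI_NO, NI_NO, topc_inl]

end Vale.Agent.P195R
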