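import Vale.Agent.P195R.FamFK

/-! # P195: uniform package for all targets `T v` (`O_0, O_1, O_2, L, F, K`) -/

namespace Vale.Agent.P195R

open P195A P195A.RS P195E P195E.FOb CategoryTheory

variable {k : Type} [Field k] [CharZero k]

/-- everything needed about a target `G` and its twist `Phi G` (dual side, RR level) -/
structure Tgt (G : FOb k) : Prop where
  ex : ∀ n : ℕ, FamEx ((dual k).pi G.I) G.filt n
  exP : ∀ n : ℕ, FamEx ((dual k).pi (Phi.obj G).I) (Phi.obj G).filt n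
  gen : FamGen ((dual k).pi G.I) G.filt
  genP : FamGen ((dual k).pi (Phi.obj G).I) (Phi.obj G).filt
  inj : ∀ (n : ℕ) (z u v : Vy (G.I → Wo k)), z ∈ VVf (G.filt 0 0) (n : ℤ) →
    ((dual k).pi G.I).rho z = ((dual k).pi G.I).al u + ((dual k).pi G.I).be v →
    ∃ u' ∈ VVf (G.filt (-1) 1) ((n : ℤ) - 1), ∃ v' ∈ VVf (G.filt 1 0) ((n : ℤ) + 1),
      z = ((dual k).pi G.I).al u' + ((dual k).pi G.I).be v'
  surj : ∀ (n : ℕ) (z' : Vy (G.I → Wo k)), z' ∈ VVf ((Phi.obj G).filt 0 0) ((n : ℤ) + 1) →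
    ∃ z ∈ VVf (G.filt 0 0) (n : ℤ), ∃ u ∈ VVf ((Phi.obj G).filt (-1) 1) (n : ℤ),
      ∃ v ∈ VVf ((Phi.obj G).filt 1 0) ((n : ℤ) + 2),
      z' = ((dual k).pi G.I).rho z + (((dual k).pi G.I).al u + ((dual k).pi G.I).be v)

theorem tgt_FF : Tgt (FF k 0 0) where
  ex := famEx_FF
  exP := famEx_PhiFF
  gen := famGen_FF
  genP := famGen_PhiFF
  inj n z u v hz hr := rho_inj_EF n hz hr
  surj n z' hz' := by
    have h : ∀ w d, EF k 0 0 (w - 1) (d - 1) = EF k 1 1 w d := fun w d =>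
      (EF_shift 0 0 w d).trans (by rw [zero_add])
    have h1 : z' ∈ VVf (EF k 1 1 0 0) ((n : ℤ) + 1) := by
      rw [← h]
      exact hz'
    obtain ⟨z, hz, u, hu, v, hv, h2⟩ := rho_surj_EF n h1
    rw [← h] at hu hv
    exact ⟨z, hz, u, hu, v, hv, h2⟩

theorem tgt_KK : Tgt (KK k 0 0) where
  ex := famEx_KK
  exP := famEx_PhiKK
  gen := famGen_KK
  genP := famGen_PhiKK
  inj n z u v hz hr := rho_inj_EK n hz hr
  surj n z' hz' := by
    have h : ∀ w d, EK k 0 0 (w - 1) (d - 1) = EK k 1 1 w d := fun w d =>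
      (EK_shift 0 0 w d).trans (by rw [zero_add])
    have h1 : z' ∈ VVf (EK k 1 1 0 0) ((n : ℤ) + 1) := by
      rw [← h]
      exact hz'
    obtain ⟨z, hz, u, hu, v, hv, h2⟩ := rho_surj_EK n h1
    rw [← h] at hu hv
    exact ⟨z, hz, u, hu, v, hv, h2⟩

variable (k) in
/-- the family of `O(a, b)` -/
noncomputable def EOb (a b w d : ℤ) : Submodule k (Unit → Wo k) := (O k a b).filt w d

theorem EOb_eq (a b : ℤ) : EOb k a b = ((dual k).pi Unit).EO a b := by
  funext w d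
  ext u
  rw [piEO_mem]
  refine Iff.trans O_mem_iff ⟨fun h i => h, fun h => h ()⟩

theorem EOb_shift (a b w d : ℤ) : EOb k a b (w - 1) (d - 1) = EOb k (a + 1) (b + 1) w d := by
  rw [EOb_eq, EOb_eq, EO_shift]

theorem tgt_O {a b : ℤ} (ha : a ≤ 0) (hb : 0 ≤ b) (hab : 0 ≤ a + b) (hx : a + b ≠ 0 ∨ b ≤ 0) :
    Tgt (O k a b) where
  ex n := by
    have h : FamEx ((dual k).pi Unit) (EOb k a b) n := by
      rw [EOb_eq]
      exact famEx_EO n (by omega) b
    exact h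
  exP n := by
    have h0 : (fun w d => EOb k a b (w - 1) (d - 1)) = EOb k (a + 1) (b + 1) := by
      funext w d
      exact EOb_shift a b w d
    have h : FamEx ((dual k).pi Unit) (fun w d => EOb k a b (w - 1) (d - 1)) n := by
      rw [h0, EOb_eq]
      exact famEx_EO n (by omega) (b + 1)
    exact h
  gen := famGen_ob (surjX_O (by omega)) (surjP_O (by omega))
  genP := famGen_ob (surjX_Phi (surjX_O (by omega))) (surjP_Phi (surjP_O (by omega)))
  inj n z u v hz hr := by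
    have hz' : z ∈ VVf (EOb k a b 0 0) (n : ℤ) := hz
    rw [EOb_eq] at hz'
    obtain ⟨u', hu', v', hv', h⟩ := rho_inj_EO n (by omega) b hz' hr
    rw [← EOb_eq] at hu' hv'
    exact ⟨u', hu', v', hv', h⟩
  surj n z' hz' := by
    have h : ∀ w d, EOb k a b (w - 1) (d - 1) = ((dual k).pi Unit).EO (a + 1) (b + 1) w d :=
      fun w d => by rw [EOb_shift, EOb_eq]
    have h1 : z' ∈ VVf (((dual k).pi Unit).EO (a + 1) (b + 1) 0 0) ((n : ℤ) + 1) := by
      rw [← h]
      exact hz'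
    obtain ⟨z, hz, u, hu, v, hv, h2⟩ := rho_surj_EO n ha hb hab h1
    rw [← h] at hu hv
    rw [← EOb_eq] at hz
    exact ⟨z, hz, u, hu, v, hv, h2⟩

end Vale.Agent.P195R
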