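import Vale.Agent.P195R.Core

/-! # P195, the complexes RR(n) at t = 0 (commuting operators) -/

namespace Vale.Agent.P195R

open Finset

variable {k S : Type*} [Field k] [AddCommGroup S] [Module k S]

/-- bigraded module with commuting operators `X0 X1 D0 D1`, Koszul facts -/
structure Grd (O : Ops k S) (G : ℤ → ℤ → Submodule k S) : Prop where
  t0 : O.t = 0
  x0 : ∀ a b z, z ∈ G a b → O.X0 z ∈ G (a + 1) b
  x1 : ∀ a b z, z ∈ G a b → O.X1 z ∈ G (a + 1) b
  d0 : ∀ a b z, z ∈ G a b → O.D0 z ∈ G a (b + 1)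
  d1 : ∀ a b z, z ∈ G a b → O.D1 z ∈ G a (b + 1)
  ix : ∀ a b z, z ∈ G a b → O.X1 z = 0 → z = 0
  id : ∀ a b z, z ∈ G a b → O.D0 z = 0 → z = 0
  kx : ∀ a b p q, p ∈ G a b → q ∈ G a b → O.X0 p = O.X1 q →
    ∃ r ∈ G (a - 1) b, p = O.X1 r ∧ q = O.X0 r
  kd : ∀ a b p q, p ∈ G a b → q ∈ G a b → O.D0 p = O.D1 q →
    ∃ r ∈ G a (b - 1), p = O.D1 r ∧ q = O.D0 r
  sx : ∀ a b z, 0 ≤ a → z ∈ G (a + 1) b → ∃ p ∈ G a b, ∃ q ∈ G a b, z = O.X0 p + O.X1 q
  sd : ∀ a b z, 0 ≤ b → z ∈ G a (b + 1) → ∃ p ∈ G a b, ∃ q ∈ G a b, z = O.D0 p + O.D1 q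

namespace Ops

variable (O : Ops k S)

/-- `X0^(m-i) X1^i` -/
def mon (m i : ℕ) : S →ₗ[k] S := (O.X0 ^ (m - i) : Module.End k S) * (O.X1 ^ i : Module.End k S)

theorem cXX : Commute (O.X0 : Module.End k S) O.X1 := LinearMap.ext O.hXX

theorem mon_s0 {m i : ℕ} (h : i ≤ m) (z : S) : O.mon (m + 1) i z = O.X0 (O.mon m i z) := by
  have : m + 1 - i = (m - i) + 1 := by omega
  unfold mon
  rw [this, pow_succ', mul_assoc]
  rfl

theorem mon_s1 (m i : ℕ) (z : S) : O.mon (m + 1) (i + 1) z = O.X1 (O.mon m i z) := by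
  have h1 : m + 1 - (i + 1) = m - i := by omega
  have h2 : ((O.X0 ^ (m - i) : Module.End k S)) * (O.X1 ^ (i + 1) : Module.End k S) =
      (O.X1 : Module.End k S) * ((O.X0 ^ (m - i) : Module.End k S) * (O.X1 ^ i : Module.End k S)) := by
    rw [pow_succ', ← mul_assoc, ← mul_assoc, (O.cXX.pow_left (m - i)).eq]
  unfold mon
  rw [h1, h2]
  rfl

theorem mon_x0 (m i : ℕ) (z : S) : O.mon m i (O.X0 z) = O.X0 (O.mon m i z) := by
  have h : Commute (O.X0 : Module.End k S) (O.mon m i) := by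
    unfold mon
    exact (Commute.pow_right (Commute.refl _) _).mul_right (O.cXX.pow_right i)
  exact (LinearMap.congr_fun h.eq z).symm

theorem mon_x1 (m i : ℕ) (z : S) : O.mon m i (O.X1 z) = O.X1 (O.mon m i z) := by
  have h : Commute (O.X1 : Module.End k S) (O.mon m i) := by
    unfold mon
    exact (O.cXX.symm.pow_right _).mul_right (Commute.pow_right (Commute.refl _) _)
  exact (LinearMap.congr_fun h.eq z).symm

/-- evaluation `y = x` -/
def ev (m : ℕ) (f : ℕ → S) : S := ∑ i ∈ range (m + 1), O.mon m i (f i)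

theorem ev_sub (m : ℕ) (f g : ℕ → S) : O.ev m (f - g) = O.ev m f - O.ev m g := by
  simp [ev, sum_sub_distrib]

theorem ev_add (m : ℕ) (f g : ℕ → S) : O.ev m (f + g) = O.ev m f + O.ev m g := by
  simp [ev, sum_add_distrib]

theorem ev_smul (m : ℕ) (r : k) (f : ℕ → S) : O.ev m (r • f) = r • O.ev m f := by
  simp [ev, smul_sum]

/-- partial derivatives in `y` on degree `m` -/
def p0 (m : k) (f : ℕ → S) : ℕ → S := fun i => (m - (i : k)) • f i

def p1 (f : ℕ → S) : ℕ → S := fun i => ((i : k) + 1) • f (i + 1)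

theorem p0_sub (m : k) (f g : ℕ → S) : p0 m (f - g) = p0 m f - p0 m g := by
  ext i
  simp [p0, smul_sub]

theorem p1_sub (f g : ℕ → S) : p1 (k := k) (f - g) = p1 (k := k) f - p1 (k := k) g := by
  ext i
  simp [p1, smul_sub]

theorem p0_add (m : k) (f g : ℕ → S) : p0 m (f + g) = p0 m f + p0 m g := by
  ext i
  simp [p0, smul_add]

theorem p1_add (f g : ℕ → S) : p1 (k := k) (f + g) = p1 (k := k) f + p1 (k := k) g := by
  ext i
  simp [p1, smul_add]

theorem ev_succ_x0 {m : ℕ} {f : ℕ → S} (hf : f (m + 1) = 0) :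
    O.ev (m + 1) f = O.X0 (O.ev m f) := by
  unfold ev
  rw [sum_range_succ, hf, map_zero, add_zero, map_sum]
  refine sum_congr rfl fun i hi => ?_
  rw [mem_range] at hi
  exact O.mon_s0 (by omega) _

theorem ev_succ_x1 (m : ℕ) (f : ℕ → S) : O.ev (m + 1) (sh f) = O.X1 (O.ev m f) := by
  unfold ev
  rw [sum_range_succ', sh_z, map_zero, add_zero, map_sum]
  exact sum_congr rfl fun i _ => O.mon_s1 m i _

theorem al_eq (g : ℕ → S) : O.al g = (fun i => O.X0 (sh g i)) - (fun i => O.X1 (g i)) := rfl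

theorem ev_X0 (m : ℕ) (f : ℕ → S) : O.ev m (fun i => O.X0 (f i)) = O.X0 (O.ev m f) := by
  unfold ev
  rw [map_sum]
  exact sum_congr rfl fun i _ => O.mon_x0 m i _

theorem ev_X1 (m : ℕ) (f : ℕ → S) : O.ev m (fun i => O.X1 (f i)) = O.X1 (O.ev m f) := by
  unfold ev
  rw [map_sum]
  exact sum_congr rfl fun i _ => O.mon_x1 m i _

theorem ev_al {m : ℕ} {g : ℕ → S} (hg : g (m + 1) = 0) : O.ev (m + 1) (O.al g) = 0 := by
  rw [al_eq, ev_sub, ev_X0, ev_X1, ev_succ_x1, ev_succ_x0 O hg, O.hXX, sub_self]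

theorem euler (m : ℕ) (f : ℕ → S) : ((m : k) + 1) • O.ev (m + 1) f =
    O.X0 (O.ev m (p0 ((m : k) + 1) f)) + O.X1 (O.ev m (p1 (k := k) f)) := by
  have h0 : O.X0 (O.ev m (p0 ((m : k) + 1) f)) =
      ∑ i ∈ range (m + 2), (((m : k) + 1) - i) • O.mon (m + 1) i (f i) := by
    rw [sum_range_succ]
    simp only [Nat.cast_add, Nat.cast_one, sub_self, zero_smul, add_zero]
    unfold ev
    rw [map_sum]
    refine sum_congr rfl fun i hi => ?_
    rw [mem_range] at hi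
    rw [O.mon_s0 (by omega)]
    simp only [p0, map_smul]
  have h1 : O.X1 (O.ev m (p1 (k := k) f)) =
      ∑ i ∈ range (m + 2), (i : k) • O.mon (m + 1) i (f i) := by
    rw [sum_range_succ']
    simp only [Nat.cast_zero, zero_smul, add_zero]
    unfold ev
    rw [map_sum]
    refine sum_congr rfl fun i _ => ?_
    rw [O.mon_s1]
    simp only [p1, map_smul, Nat.cast_add, Nat.cast_one]
  rw [h0, h1, ← sum_add_distrib, ev, smul_sum]
  refine sum_congr rfl fun i _ => ?_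
  rw [← add_smul]
  congr 1
  ring

theorem ev_p0_al {m : ℕ} (g : ℕ → S) :
    O.ev m (p0 ((m : k) + 1) (O.al g)) = - O.X1 (O.ev m g) := by
  have h : ∀ i, p0 ((m : k) + 1) (O.al g) i = O.X0 (((m : k) + 1 - i) • sh g i)
      - O.X1 (((m : k) + 1 - i) • g i) := by
    intro i
    simp only [p0, al, smul_sub, map_smul]
  have h2 : O.ev m (p0 ((m : k) + 1) (O.al g)) =
      ∑ i ∈ range (m + 1), O.mon m i (O.X0 (((m : k) + 1 - i) • sh g i)) -
      ∑ i ∈ range (m + 1), O.mon m i (O.X1 (((m : k) + 1 - i) • g i)) := by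
    rw [ev, ← sum_sub_distrib]
    refine sum_congr rfl fun i _ => ?_
    rw [h, map_sub]
  have h3 : ∑ i ∈ range (m + 1), O.mon m i (O.X0 (((m : k) + 1 - i) • sh g i)) =
      ∑ i ∈ range (m + 1), ((m : k) - i) • O.X1 (O.mon m i (g i)) := by
    rw [sum_range_succ', sum_range_succ]
    simp only [sh_z, smul_zero, map_zero, add_zero, sub_self, zero_smul]
    refine sum_congr rfl fun i hi => ?_
    rw [mem_range] at hi
    obtain ⟨j, rfl⟩ : ∃ j, m = j + 1 := ⟨m - 1, by omega⟩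
    rw [sh_s, O.mon_s1, O.mon_s0 (by omega : i ≤ j)]
    simp only [map_smul, O.mon_x0, O.hXX]
    congr 1
    push_cast
    ring
  rw [h2, h3, ev, map_sum, ← sum_sub_distrib, ← sum_neg_distrib]
  refine sum_congr rfl fun i _ => ?_
  simp only [map_smul, O.mon_x1]
  module

theorem ev_p1_al {m : ℕ} {g : ℕ → S} (hg : g (m + 1) = 0) :
    O.ev m (p1 (k := k) (O.al g)) = O.X0 (O.ev m g) := by
  have h : ∀ i, p1 (k := k) (O.al g) i = O.X0 (((i : k) + 1) • g i)
      - O.X1 (((i : k) + 1) • g (i + 1)) := by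
    intro i
    simp only [p1, al, smul_sub, map_smul, sh_s]
  have h2 : O.ev m (p1 (k := k) (O.al g)) =
      ∑ i ∈ range (m + 1), O.mon m i (O.X0 (((i : k) + 1) • g i)) -
      ∑ i ∈ range (m + 1), O.mon m i (O.X1 (((i : k) + 1) • g (i + 1))) := by
    rw [ev, ← sum_sub_distrib]
    refine sum_congr rfl fun i _ => ?_
    rw [h, map_sub]
  have h3 : ∑ i ∈ range (m + 1), O.mon m i (O.X1 (((i : k) + 1) • g (i + 1))) =
      ∑ i ∈ range (m + 1), (i : k) • O.X0 (O.mon m i (g i)) := by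
    rw [sum_range_succ, sum_range_succ']
    simp only [hg, smul_zero, map_zero, add_zero, Nat.cast_zero, zero_smul]
    refine sum_congr rfl fun i hi => ?_
    rw [mem_range] at hi
    obtain ⟨j, rfl⟩ : ∃ j, m = j + 1 := ⟨m - 1, by omega⟩
    rw [O.mon_s1, O.mon_s0 (by omega : i ≤ j)]
    simp only [map_smul, O.mon_x1, O.hXX]
    congr 1
    push_cast
    ring
  rw [h2, h3, ev, map_sum, ← sum_sub_distrib]
  refine sum_congr rfl fun i _ => ?_
  simp only [map_smul, O.mon_x0]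
  module

/-- `be` in terms of the partial derivatives, evaluated (t = 0) -/
theorem mon_D0 (h0 : O.t = 0) (m i : ℕ) (z : S) : O.mon m i (O.D0 z) = O.D0 (O.mon m i z) := by
  have c0 : Commute (O.X0 : Module.End k S) O.D0 := LinearMap.ext fun z => by
    show O.X0 (O.D0 z) = O.D0 (O.X0 z)
    rw [O.h00, h0, zero_smul, add_zero]
  have c1 : Commute (O.X1 : Module.End k S) O.D0 := LinearMap.ext fun z => O.h10 z
  have h : Commute (O.mon m i : Module.End k S) O.D0 := by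
    unfold mon
    exact (c0.pow_left _).mul_left (c1.pow_left _)
  exact LinearMap.congr_fun h.eq z

theorem mon_D1 (h0 : O.t = 0) (m i : ℕ) (z : S) : O.mon m i (O.D1 z) = O.D1 (O.mon m i z) := by
  have c0 : Commute (O.X0 : Module.End k S) O.D1 := LinearMap.ext fun z => O.h01 z
  have c1 : Commute (O.X1 : Module.End k S) O.D1 := LinearMap.ext fun z => by
    show O.X1 (O.D1 z) = O.D1 (O.X1 z)
    rw [O.h11, h0, zero_smul, add_zero]
  have h : Commute (O.mon m i : Module.End k S) O.D1 := by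
    unfold mon
    exact (c0.pow_left _).mul_left (c1.pow_left _)
  exact LinearMap.congr_fun h.eq z

theorem ev_be (h0 : O.t = 0) (m : ℕ) (c : k) (f : ℕ → S) :
    O.ev m (O.be c f) = O.D1 (O.ev m (p0 c f)) - O.D0 (O.ev m (p1 (k := k) f)) := by
  unfold ev
  rw [map_sum, map_sum, ← sum_sub_distrib]
  refine sum_congr rfl fun i _ => ?_
  simp only [be, p0, p1, map_sub, map_smul, O.mon_D0 h0, O.mon_D1 h0]

theorem ev_DX (h0 : O.t = 0) (m : ℕ) (f : ℕ → S) :
    O.ev m (fun i => O.X0 (O.D0 (f i)) + O.X1 (O.D1 (f i))) =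
      O.X0 (O.D0 (O.ev m f)) + O.X1 (O.D1 (O.ev m f)) := by
  unfold ev
  simp only [map_sum]
  rw [← sum_add_distrib]
  refine sum_congr rfl fun i _ => ?_
  simp only [map_add, O.mon_D0 h0, O.mon_D1 h0, O.mon_x0, O.mon_x1]

end Ops

theorem al_mem {O : Ops k S} {G : ℤ → ℤ → Submodule k S} (hG : Grd O G) {a b : ℤ} {c : ℕ}
    {u : ℕ → S} (hu : u ∈ VV (G a b) c) : O.al u ∈ VV (G (a + 1) b) (c + 1) := by
  refine ⟨fun i => Submodule.sub_mem _ (hG.x0 _ _ _ (sh_VV hu i)) (hG.x1 _ _ _ (hu.1 i)),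
    fun i hi => ?_⟩
  cases i with
  | zero => omega
  | succ i => simp [Ops.al, hu.2 i (by omega), hu.2 (i + 1) (by omega)]

theorem be_mem {O : Ops k S} {G : ℤ → ℤ → Submodule k S} (hG : Grd O G) {a b : ℤ} {m : ℕ}
    {u : ℕ → S} (hu : u ∈ VV (G a b) (m + 1)) : O.be (m : k) u ∈ VV (G a (b + 1)) m := by
  refine ⟨fun i => Submodule.sub_mem _ (Submodule.smul_mem _ _ (hG.d1 _ _ _ (hu.1 i)))
    (Submodule.smul_mem _ _ (hG.d0 _ _ _ (hu.1 (i + 1)))), fun i hi => ?_⟩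
  rcases Nat.eq_or_lt_of_le hi with h | h
  · subst h
    simp [Ops.be, hu.2 (m + 1) (by omega)]
  · simp [Ops.be, hu.2 i (by omega), hu.2 (i + 1) (by omega)]

theorem p0_mem {N : Submodule k S} {m : ℕ} {u : ℕ → S} (hu : u ∈ VV N (m + 2)) :
    Ops.p0 ((m : k) + 1) u ∈ VV N (m + 1) := by
  refine ⟨fun i => Submodule.smul_mem _ _ (hu.1 i), fun i hi => ?_⟩
  rcases Nat.eq_or_lt_of_le hi with h | h
  · subst h
    simp [Ops.p0]
  · simp [Ops.p0, hu.2 i (by omega)]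

theorem p1_mem {N : Submodule k S} {m : ℕ} {u : ℕ → S} (hu : u ∈ VV N (m + 2)) :
    Ops.p1 (k := k) u ∈ VV N (m + 1) :=
  ⟨fun i => Submodule.smul_mem _ _ (hu.1 (i + 1)), fun i hi => by
    simp [Ops.p1, hu.2 (i + 1) (by omega)]⟩

theorem mon_mem {O : Ops k S} {G : ℤ → ℤ → Submodule k S} (hG : Grd O G) {a b : ℤ} :
    ∀ {m i : ℕ}, i ≤ m → ∀ z ∈ G a b, O.mon m i z ∈ G (a + m) b := by
  intro m
  induction m with
  | zero =>
    intro i hi z hz
    obtain rfl : i = 0 := by omega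
    simpa [Ops.mon] using hz
  | succ m ih =>
    intro i hi z hz
    have e : a + ((m + 1 : ℕ) : ℤ) = a + m + 1 := by push_cast; ring
    rw [e]
    rcases Nat.eq_or_lt_of_le hi with h | h
    · subst h
      rw [O.mon_s1]
      exact hG.x1 _ _ _ (ih le_rfl z hz)
    · rw [O.mon_s0 (by omega)]
      exact hG.x0 _ _ _ (ih (by omega) z hz)

theorem ev_mem {O : Ops k S} {G : ℤ → ℤ → Submodule k S} (hG : Grd O G) {a b : ℤ} {c m : ℕ}
    {u : ℕ → S} (hu : u ∈ VV (G a b) c) : O.ev m u ∈ G (a + m) b := by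
  refine Submodule.sum_mem _ fun i hi => ?_
  rw [mem_range] at hi
  exact mon_mem hG (by omega) _ (hu.1 i)

theorem dvd_pow {O : Ops k S} {G : ℤ → ℤ → Submodule k S} (hG : Grd O G) {a b : ℤ} :
    ∀ (j : ℕ) {z e : S}, z ∈ G a b → e ∈ G (a + j - 1) b → (O.X0 ^ j : Module.End k S) z = O.X1 e →
      ∃ r ∈ G (a - 1) b, z = O.X1 r := by
  intro j
  induction j with
  | zero =>
    intro z e hz he h
    refine ⟨e, ?_, h⟩
    simpa using he
  | succ j ih =>
    intro z e hz he h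
    have hj : ∀ j : ℕ, (O.X0 ^ j : Module.End k S) z ∈ G (a + j) b := by
      intro j
      induction j with
      | zero => simpa using hz
      | succ j ihj =>
        have e1 : a + ((j + 1 : ℕ) : ℤ) = a + j + 1 := by push_cast; ring
        rw [e1, pow_succ']
        exact hG.x0 _ _ _ ihj
    have he' : e ∈ G (a + j) b := by
      have e1 : a + ((j + 1 : ℕ) : ℤ) - 1 = a + j := by push_cast; ring
      rwa [e1] at he
    obtain ⟨r, hr, h1, h2⟩ := hG.kx _ _ _ _ (hj j) he' (by rw [← h, pow_succ']; rfl)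
    exact ih hz hr h1

/-- (A1) kernel of the evaluation -/
theorem ev_ker {O : Ops k S} {G : ℤ → ℤ → Submodule k S} (hG : Grd O G) {a b : ℤ} :
    ∀ (m : ℕ) {f : ℕ → S}, f ∈ VV (G a b) (m + 1) → O.ev m f = 0 →
      ∃ g ∈ VV (G (a - 1) b) m, f = O.al g := by
  intro m
  induction m with
  | zero =>
    intro f hf h
    have h0 : f 0 = 0 := by simpa [Ops.ev, Ops.mon] using h
    refine ⟨0, Submodule.zero_mem _, ?_⟩
    rw [O.al_zero]
    ext i
    cases i with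
    | zero => simpa using h0
    | succ i => exact hf.2 _ (by omega)
  | succ m ih =>
    intro f hf h
    have hf1 : (fun i => f (i + 1)) ∈ VV (G a b) (m + 1) :=
      ⟨fun i => hf.1 _, fun i hi => hf.2 _ (by omega)⟩
    have h1 : O.ev (m + 1) f = (O.X0 ^ (m + 1) : Module.End k S) (f 0) +
        O.X1 (O.ev m (fun i => f (i + 1))) := by
      have h2 : f = (f - sh (fun i => f (i + 1))) + sh (fun i => f (i + 1)) := by abel
      have h3 : O.ev (m + 1) (f - sh (fun i => f (i + 1))) =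
          (O.X0 ^ (m + 1) : Module.End k S) (f 0) := by
        unfold Ops.ev
        rw [sum_range_succ']
        simp [Ops.mon]
      conv_lhs => rw [h2]
      rw [O.ev_add, h3, O.ev_succ_x1]
    rw [h1] at h
    have he : -O.ev m (fun i => f (i + 1)) ∈ G (a + ((m + 1 : ℕ) : ℤ) - 1) b := by
      have e1 : a + ((m + 1 : ℕ) : ℤ) - 1 = a + m := by push_cast; ring
      rw [e1]
      exact Submodule.neg_mem _ (ev_mem hG hf1)
    obtain ⟨r, hr, h2⟩ := dvd_pow hG (m + 1) (hf.1 0) he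
      (by rw [map_neg]; exact eq_neg_of_add_eq_zero_left h)
    have hr' : O.X0 r ∈ G a b := by
      have := hG.x0 _ _ _ hr
      rwa [sub_add_cancel] at this
    have h3 : O.X1 ((O.X0 ^ (m + 1) : Module.End k S) r + O.ev m (fun i => f (i + 1))) = 0 := by
      rw [map_add, ← h, h2]
      congr 1
      exact (LinearMap.congr_fun (O.cXX.pow_left (m + 1)).eq r).symm
    have hrp : ∀ j : ℕ, (O.X0 ^ j : Module.End k S) r ∈ G (a - 1 + j) b := by
      intro j
      induction j with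
      | zero => simpa using hr
      | succ j ihj =>
        have e1 : a - 1 + ((j + 1 : ℕ) : ℤ) = a - 1 + j + 1 := by push_cast; ring
        rw [e1, pow_succ']
        exact hG.x0 _ _ _ ihj
    have h4 : (O.X0 ^ (m + 1) : Module.End k S) r + O.ev m (fun i => f (i + 1)) = 0 := by
      refine hG.ix (a + m) b _ (Submodule.add_mem _ ?_ (ev_mem hG hf1)) h3
      have := hrp (m + 1)
      have e1 : a - 1 + ((m + 1 : ℕ) : ℤ) = a + m := by push_cast; ring
      rwa [e1] at this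
    set f' : ℕ → S := (fun i => f (i + 1)) + (fun i => if i = 0 then O.X0 r else 0) with hf'
    have hf'm : f' ∈ VV (G a b) (m + 1) := by
      refine Submodule.add_mem _ hf1 ⟨fun i => ?_, fun i hi => ?_⟩
      · by_cases h : i = 0
        · simp [h, hr']
        · simp [h]
      · simp [show i ≠ 0 by omega]
    have h50 : O.ev m (fun i => if i = 0 then O.X0 r else 0) =
        (O.X0 ^ (m + 1) : Module.End k S) r := by
      unfold Ops.ev
      rw [sum_range_succ']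
      have h51 : ∀ i ∈ range m, O.mon m (i + 1) (if i + 1 = 0 then O.X0 r else 0) = 0 := by
        intro i _
        rw [if_neg (by omega), map_zero]
      rw [sum_eq_zero h51, zero_add]
      show O.mon m 0 (if (0 : ℕ) = 0 then O.X0 r else 0) = _
      rw [if_pos rfl, pow_succ]
      simp [Ops.mon]
    have h5 : O.ev m f' = 0 := by
      rw [hf', O.ev_add, add_comm, h50, h4]
    obtain ⟨g, hg, h6⟩ := ih hf'm h5
    refine ⟨fun i => if i = 0 then -r else g (i - 1), ⟨fun i => ?_, fun i hi => ?_⟩, ?_⟩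
    · by_cases h : i = 0
      · simp [h, hr]
      · simp [h, hg.1]
    · simp [show i ≠ 0 by omega, hg.2 (i - 1) (by omega)]
    · ext i
      cases i with
      | zero => simp [Ops.al, h2]
      | succ i =>
        have h7 := congrFun h6 i
        simp only [hf', Pi.add_apply, Ops.al] at h7
        cases i with
        | zero =>
          simp only [if_true, sh_z, map_zero, zero_sub] at h7
          simp only [Ops.al, sh_s, if_true, Nat.add_eq_zero_iff, one_ne_zero, and_false, if_false,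
            map_neg]
          rw [eq_sub_of_add_eq h7]
          simp
          abel
        | succ i =>
          simp only [Nat.add_eq_zero_iff, one_ne_zero, and_false, if_false, add_zero, sh_s] at h7
          simp only [Ops.al, sh_s, Nat.add_eq_zero_iff, one_ne_zero, and_false, if_false]
          rw [h7]
          simp

/-- (B1) the evaluation is onto in nonnegative degrees -/
theorem ev_onto {O : Ops k S} {G : ℤ → ℤ → Submodule k S} (hG : Grd O G) {a b : ℤ} (ha : 0 ≤ a) :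
    ∀ (m : ℕ) {z : S}, z ∈ G (a + m) b → ∃ f ∈ VV (G a b) (m + 1), O.ev m f = z := by
  intro m
  induction m with
  | zero =>
    intro z hz
    refine ⟨fun i => if i = 0 then z else 0, ⟨fun i => ?_, fun i hi => ?_⟩, ?_⟩
    · by_cases h : i = 0
      · simpa [h] using hz
      · simp [h]
    · simp [show i ≠ 0 by omega]
    · simp [Ops.ev, Ops.mon]
  | succ m ih =>
    intro z hz
    have e1 : a + ((m + 1 : ℕ) : ℤ) = a + m + 1 := by push_cast; ring
    rw [e1] at hz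
    obtain ⟨p, hp, q, hq, h⟩ := hG.sx _ _ _ (by omega) hz
    obtain ⟨f, hf, h1⟩ := ih hp
    obtain ⟨g, hg, h2⟩ := ih hq
    refine ⟨f + sh g, Submodule.add_mem _ ⟨hf.1, fun i hi => hf.2 i (by omega)⟩
      ⟨fun i => sh_VV hg i, fun i hi => ?_⟩, ?_⟩
    · cases i with
      | zero => omega
      | succ i => simp [hg.2 i (by omega)]
    · rw [O.ev_add, O.ev_succ_x0 (hf.2 (m + 1) (by omega)), O.ev_succ_x1, h1, h2, h]

variable [CharZero k]

theorem nat_ne (m : ℕ) : ((m : k) + 1) ≠ 0 := by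
  exact_mod_cast Nat.succ_ne_zero m

/-- (A2) both derivatives vanish on the diagonal -/
theorem grad_ker {O : Ops k S} {G : ℤ → ℤ → Submodule k S} (hG : Grd O G) {a b : ℤ} (m : ℕ)
    {f : ℕ → S} (hf : f ∈ VV (G a b) (m + 2)) (h0 : O.ev m (Ops.p0 ((m : k) + 1) f) = 0)
    (h1 : O.ev m (Ops.p1 (k := k) f) = 0) : ∃ g ∈ VV (G (a - 2) b) m, f = O.al (O.al g) := by
  have h2 := O.euler m f
  rw [h0, h1, map_zero, map_zero, add_zero] at h2
  have h3 : O.ev (m + 1) f = 0 := (smul_eq_zero.1 h2).resolve_left (nat_ne m)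
  obtain ⟨g, hg, h4⟩ := ev_ker hG (m + 1) hf h3
  rw [h4, O.ev_p0_al, neg_eq_zero] at h0
  have h5 : O.ev m g = 0 := hG.ix _ _ _ (ev_mem hG hg) h0
  obtain ⟨r, hr, h6⟩ := ev_ker hG m hg h5
  refine ⟨r, ?_, by rw [h4, h6]⟩
  have e1 : a - 1 - 1 = a - 2 := by ring
  rwa [e1] at hr

/-- (B2) the gradient on the diagonal is onto in positive degrees -/
theorem grad_onto {O : Ops k S} {G : ℤ → ℤ → Submodule k S} (hG : Grd O G) {a b : ℤ} (ha : 1 ≤ a)
    (m : ℕ) {z w : S} (hz : z ∈ G (a + m) b) (hw : w ∈ G (a + m) b) :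
    ∃ f ∈ VV (G a b) (m + 2), O.ev m (Ops.p0 ((m : k) + 1) f) = z ∧
      O.ev m (Ops.p1 (k := k) f) = w := by
  have e1 : a + ((m + 1 : ℕ) : ℤ) = a + m + 1 := by push_cast; ring
  have hs : O.X0 z + O.X1 w ∈ G (a + ((m + 1 : ℕ) : ℤ)) b := by
    rw [e1]
    exact Submodule.add_mem _ (hG.x0 _ _ _ hz) (hG.x1 _ _ _ hw)
  obtain ⟨f₀, hf₀, h₀⟩ := ev_onto hG (by omega) (m + 1) hs
  set f₁ : ℕ → S := ((m : k) + 1)⁻¹ • f₀ with hf₁
  have hf₁m : f₁ ∈ VV (G a b) (m + 2) := Submodule.smul_mem _ _ hf₀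
  have h1 : O.X0 (O.ev m (Ops.p0 ((m : k) + 1) f₁)) + O.X1 (O.ev m (Ops.p1 (k := k) f₁)) =
      O.X0 z + O.X1 w := by
    rw [← O.euler, hf₁, O.ev_smul, smul_smul, mul_inv_cancel₀ (nat_ne m), one_smul, h₀]
  obtain ⟨r, hr, h2, h3⟩ := hG.kx (a + m) b (z - O.ev m (Ops.p0 ((m : k) + 1) f₁))
    (O.ev m (Ops.p1 (k := k) f₁) - w)
    (Submodule.sub_mem _ hz (ev_mem hG (p0_mem hf₁m)))
    (Submodule.sub_mem _ (ev_mem hG (p1_mem hf₁m)) hw) (by
      rw [map_sub, map_sub, sub_eq_sub_iff_add_eq_add, ← h1]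
      abel)
  have hr' : r ∈ G (a - 1 + m) b := by
    have e2 : a + (m : ℤ) - 1 = a - 1 + m := by ring
    rwa [e2] at hr
  obtain ⟨g, hg, h4⟩ := ev_onto hG (by omega) m hr'
  have hal : O.al g ∈ VV (G a b) (m + 2) := by
    have := al_mem hG hg
    rwa [sub_add_cancel] at this
  refine ⟨f₁ - O.al g, Submodule.sub_mem _ hf₁m hal, ?_, ?_⟩
  · rw [Ops.p0_sub, O.ev_sub, O.ev_p0_al, h4, ← h2]
    abel
  · rw [Ops.p1_sub, O.ev_sub, O.ev_p1_al (hg.2 (m + 1) (by omega)), h4, ← h3]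
    abel

omit [CharZero k] in
theorem ev_al_VV {O : Ops k S} {N : Submodule k S} {n : ℕ} {u : ℕ → S} (hu : u ∈ VV N n) :
    O.ev n (O.al u) = 0 := by
  cases n with
  | zero =>
    rw [VV_zero hu, O.al_zero]
    simp [Ops.ev]
  | succ n => exact O.ev_al (hu.2 _ le_rfl)

omit [CharZero k] in
theorem ph2_eq (O : Ops k S) (h0 : O.t = 0) (n : ℕ) (u v : ℕ → S) :
    O.ph2 n u v = (fun i => O.X0 (O.D0 (v i)) + O.X1 (O.D1 (v i))) +
      O.al (O.al u + O.be ((n : k) + 1) v) := by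
  ext i
  simp only [Ops.ph2, h0, mul_zero, zero_smul, sub_zero, Pi.add_apply]
  rfl

omit [CharZero k] in
theorem ev_q {O : Ops k S} (h0 : O.t = 0) {N : Submodule k S} {n : ℕ} {u : ℕ → S}
    (hu : u ∈ VV N n) (v : ℕ → S) : O.ev n (O.al u + O.be ((n : k) + 1) v) =
      O.D1 (O.ev n (Ops.p0 ((n : k) + 1) v)) - O.D0 (O.ev n (Ops.p1 (k := k) v)) := by
  rw [O.ev_add, ev_al_VV hu, zero_add, O.ev_be h0]

omit [CharZero k] in
theorem ev_p0_ph2 {O : Ops k S} (h0 : O.t = 0) {N : Submodule k S} {n : ℕ} {u : ℕ → S}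
    (hu : u ∈ VV N n) (v : ℕ → S) : O.ev n (Ops.p0 ((n : k) + 1) (O.ph2 n u v)) =
      ((n : k) + 1) • O.D0 (O.ev (n + 1) v) := by
  have hp : Ops.p0 ((n : k) + 1) (fun i => O.X0 (O.D0 (v i)) + O.X1 (O.D1 (v i))) =
      fun i => O.X0 (O.D0 (Ops.p0 ((n : k) + 1) v i)) + O.X1 (O.D1 (Ops.p0 ((n : k) + 1) v i)) := by
    ext i
    simp [Ops.p0, smul_add]
  have hc0 : ∀ z, O.X0 (O.D0 z) = O.D0 (O.X0 z) := fun z => by
    rw [O.h00, h0, zero_smul, add_zero]
  rw [ph2_eq O h0, Ops.p0_add, O.ev_add, O.ev_p0_al, hp, O.ev_DX h0, ev_q h0 hu, ← map_smul,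
    O.euler, map_add, map_sub, O.h10, hc0]
  abel

omit [CharZero k] in
theorem ev_p1_ph2 {O : Ops k S} (h0 : O.t = 0) {N : Submodule k S} {n : ℕ} {u v : ℕ → S}
    (hu : u ∈ VV N n) (hv : v (n + 2) = 0) : O.ev n (Ops.p1 (k := k) (O.ph2 n u v)) =
      ((n : k) + 1) • O.D1 (O.ev (n + 1) v) := by
  have hp : Ops.p1 (k := k) (fun i => O.X0 (O.D0 (v i)) + O.X1 (O.D1 (v i))) =
      fun i => O.X0 (O.D0 (Ops.p1 (k := k) v i)) + O.X1 (O.D1 (Ops.p1 (k := k) v i)) := by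
    ext i
    simp [Ops.p1, smul_add]
  have hc1 : ∀ z, O.X1 (O.D1 z) = O.D1 (O.X1 z) := fun z => by
    rw [O.h11, h0, zero_smul, add_zero]
  have hq : (O.al u + O.be ((n : k) + 1) v) (n + 1) = 0 := by
    have h1 : O.al u (n + 1) = 0 := by
      simp [Ops.al, hu.2 n le_rfl, hu.2 (n + 1) (by omega)]
    rw [Pi.add_apply, h1]
    simp [Ops.be, hv]
  rw [ph2_eq O h0, Ops.p1_add, O.ev_add, O.ev_p1_al hq, hp, O.ev_DX h0, ev_q h0 hu, ← map_smul,
    O.euler, map_add, map_sub, O.h01, hc1]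
  abel

omit [CharZero k] in
theorem al_inj {O : Ops k S} {G : ℤ → ℤ → Submodule k S} (hG : Grd O G) {a b : ℤ} {c : ℕ}
    {z : ℕ → S} (hz : z ∈ VV (G a b) c) (h : O.al z = 0) : z = 0 := by
  ext i
  induction i with
  | zero =>
    have := congrFun h 0
    simp only [Ops.al, sh_z, map_zero, zero_sub, Pi.zero_apply, neg_eq_zero] at this
    exact hG.ix _ _ _ (hz.1 0) this
  | succ i ih =>
    have := congrFun h (i + 1)
    simp only [Ops.al, sh_s, Pi.zero_apply] at this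
    rw [ih] at this
    simp only [Pi.zero_apply, map_zero, zero_sub, neg_eq_zero] at this
    exact hG.ix _ _ _ (hz.1 _) this

theorem cast1 (n : ℕ) : (((n + 1 : ℕ)) : k) = (n : k) + 1 := by push_cast; ring

/-- exactness at the second spot -/
theorem spot2 {O : Ops k S} {G : ℤ → ℤ → Submodule k S} (hG : Grd O G) {a b : ℤ} {n : ℕ}
    {u v : ℕ → S} (hu : u ∈ VV (G a (b + 1)) n) (hv : v ∈ VV (G (a + 1) b) (n + 2))
    (h1 : O.ph1 n u v = 0) (h2 : O.ph2 n u v = 0) :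
    ∃ z ∈ VV (G a b) (n + 1), u = O.be n z ∧ v = - O.al z := by
  have h3 := ev_p0_ph2 hG.t0 hu v
  have hz0 : Ops.p0 ((n : k) + 1) (0 : ℕ → S) = 0 := by
    ext i
    simp [Ops.p0]
  have he0 : O.ev n 0 = 0 := by simp [Ops.ev]
  rw [h2, hz0, he0] at h3
  have h4 : O.ev (n + 1) v = 0 := by
    have h5 := (smul_eq_zero.1 h3.symm).resolve_left (nat_ne n)
    exact hG.id _ _ _ (ev_mem hG hv) h5
  obtain ⟨z, hz, h5⟩ := ev_ker hG (n + 1) hv h4
  rw [add_sub_cancel_right] at hz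
  have h6 := O.ph2_sub n u v (O.be n (-z)) (- O.al (-z))
  rw [h2, O.ph2_d3, sub_zero] at h6
  have h7 : v - - O.al (-z) = 0 := by
    rw [O.al_neg, h5]
    abel
  rw [h7] at h6
  have h8 : O.al (O.al (u - O.be n (-z))) = 0 := by
    rw [ph2_eq O hG.t0, O.be_zero] at h6
    ext i
    have := congrFun h6 i
    simpa using this
  have hbe : O.be (n : k) (-z) ∈ VV (G a (b + 1)) n := be_mem hG (Submodule.neg_mem _ hz)
  have hs := Submodule.sub_mem _ hu hbe
  have h9 := al_inj hG hs (al_inj hG (al_mem hG hs) h8)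
  exact ⟨-z, Submodule.neg_mem _ hz, sub_eq_zero.1 h9, sub_eq_zero.1 h7⟩

/-- exactness at the first spot -/
theorem spot1 {O : Ops k S} {G : ℤ → ℤ → Submodule k S} (hG : Grd O G) {a b : ℤ} (ha : -1 ≤ a)
    {n : ℕ} {u v : ℕ → S} (hu : u ∈ VV (G (a + 1) (b + 2)) n)
    (hv : v ∈ VV (G (a + 2) (b + 1)) (n + 2)) (h : O.al u + O.be ((n : k) + 1) v = 0) :
    ∃ u' ∈ VV (G a (b + 1)) n, ∃ v' ∈ VV (G (a + 1) b) (n + 2),
      O.ph1 n u' v' = u ∧ O.ph2 n u' v' = v := by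
  have h1 := ev_q hG.t0 hu v
  have he0 : O.ev n 0 = 0 := by simp [Ops.ev]
  rw [h, he0] at h1
  obtain ⟨c, hc, h2, h3⟩ := hG.kd (a + 2 + n) (b + 1) _ _ (ev_mem hG (p1_mem hv))
    (ev_mem hG (p0_mem hv)) (sub_eq_zero.1 h1.symm).symm
  have hc' : c ∈ G (a + 1 + ((n + 1 : ℕ) : ℤ)) b := by
    have e1 : a + 1 + ((n + 1 : ℕ) : ℤ) = a + 2 + n := by push_cast; ring
    have e2 : b + 1 - 1 = b := by ring
    rw [e2] at hc
    rwa [e1]
  obtain ⟨v₀, hv₀, h4⟩ := ev_onto hG (by omega) (n + 1) hc'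
  set v₁ : ℕ → S := ((n : k) + 1)⁻¹ • v₀ with hv₁
  have hv₁m : v₁ ∈ VV (G (a + 1) b) (n + 2) := Submodule.smul_mem _ _ hv₀
  have h5 : ((n : k) + 1) • O.ev (n + 1) v₁ = c := by
    rw [hv₁, O.ev_smul, smul_smul, mul_inv_cancel₀ (nat_ne n), one_smul, h4]
  have hz : (0 : ℕ → S) ∈ VV (G a (b + 1)) n := Submodule.zero_mem _
  have hq : ∀ {u' v' : ℕ → S}, u' ∈ VV (G a (b + 1)) n → v' ∈ VV (G (a + 1) b) (n + 2) →
      O.al u' + O.be ((n : k) + 1) v' ∈ VV (G (a + 1) (b + 1)) (n + 1) := by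
    intro u' v' hu' hv'
    refine Submodule.add_mem _ (al_mem hG hu') ?_
    rw [← cast1]
    exact be_mem hG hv'
  have hph2 : ∀ {u' v' : ℕ → S}, u' ∈ VV (G a (b + 1)) n → v' ∈ VV (G (a + 1) b) (n + 2) →
      O.ph2 n u' v' ∈ VV (G (a + 2) (b + 1)) (n + 2) := by
    intro u' v' hu' hv'
    have e1 : a + 2 = a + 1 + 1 := by ring
    rw [ph2_eq O hG.t0, e1]
    refine Submodule.add_mem _ ⟨fun i => Submodule.add_mem _ (hG.x0 _ _ _ (hG.d0 _ _ _ (hv'.1 i)))
      (hG.x1 _ _ _ (hG.d1 _ _ _ (hv'.1 i))), fun i hi => ?_⟩ (al_mem hG (hq hu' hv'))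
    simp [hv'.2 i hi]
  have hph1 : ∀ {u' v' : ℕ → S}, u' ∈ VV (G a (b + 1)) n → v' ∈ VV (G (a + 1) b) (n + 2) →
      O.ph1 n u' v' ∈ VV (G (a + 1) (b + 2)) n := by
    intro u' v' hu' hv'
    have e1 : b + 2 = b + 1 + 1 := by ring
    have h7 : O.ph1 n u' v' = (fun i => O.D0 (O.X0 (u' i)) + O.D1 (O.X1 (u' i))) -
      O.be (n : k) (O.al u' + O.be ((n : k) + 1) v') := by
      ext i
      simp only [Ops.ph1, hG.t0, mul_zero, zero_smul, sub_zero, Pi.sub_apply]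
      rfl
    rw [h7, e1]
    refine Submodule.sub_mem _ ⟨fun i => Submodule.add_mem _ (hG.d0 _ _ _ (hG.x0 _ _ _ (hu'.1 i)))
      (hG.d1 _ _ _ (hG.x1 _ _ _ (hu'.1 i))), fun i hi => ?_⟩ (be_mem hG (hq hu' hv'))
    simp [hu'.2 i hi]
  have h6 : O.ev n (Ops.p0 ((n : k) + 1) (v - O.ph2 n 0 v₁)) = 0 := by
    rw [Ops.p0_sub, O.ev_sub, ev_p0_ph2 hG.t0 hz, ← map_smul, h5, h3, sub_self]
  have h7 : O.ev n (Ops.p1 (k := k) (v - O.ph2 n 0 v₁)) = 0 := by
    rw [Ops.p1_sub, O.ev_sub, ev_p1_ph2 hG.t0 hz (hv₁m.2 _ le_rfl), ← map_smul, h5, h2, sub_self]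
  obtain ⟨g, hg, h8⟩ := grad_ker hG n (Submodule.sub_mem _ hv (hph2 hz hv₁m)) h6 h7
  have e3 : a + 2 - 2 = a := by ring
  rw [e3] at hg
  have h9 : O.ph2 n (-g) (-v₁) = -(O.ph2 n g v₁) := by
    have := O.ph2_sub n 0 0 g v₁
    have hz2 : O.ph2 n 0 0 = 0 := by
      rw [ph2_eq O hG.t0]
      ext i
      simp
    rw [zero_sub, zero_sub, hz2, zero_sub] at this
    exact this
  have h10 : O.ph2 n g v₁ = v := by
    have h11 := O.ph2_sub n g v₁ 0 v₁
    rw [sub_zero, sub_self] at h11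
    have h12 : O.ph2 n g 0 = O.al (O.al g) := by
      rw [ph2_eq O hG.t0]
      ext i
      simp
    rw [h12, ← h8] at h11
    exact (sub_left_injective h11).symm
  have h13 := O.d1_ph n g v₁
  rw [h10] at h13
  have h14 : O.al (u - O.ph1 n g v₁) = 0 := by
    rw [O.al_sub, sub_eq_zero]
    rw [← h13] at h
    exact add_right_cancel h
  have h15 := al_inj hG (Submodule.sub_mem _ hu (hph1 hg hv₁m)) h14
  exact ⟨g, hg, v₁, hv₁m, (sub_eq_zero.1 h15).symm, h10⟩

/-- surjectivity at the last spot -/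
theorem spot0 {O : Ops k S} {G : ℤ → ℤ → Submodule k S} (hG : Grd O G) {a b : ℤ} (ha : -1 ≤ a)
    (hb : -1 ≤ b) {n : ℕ} {s : ℕ → S} (hs : s ∈ VV (G (a + 2) (b + 2)) (n + 1)) :
    ∃ u ∈ VV (G (a + 1) (b + 2)) n, ∃ v ∈ VV (G (a + 2) (b + 1)) (n + 2),
      s = O.al u + O.be ((n : k) + 1) v := by
  have h1 : O.ev n s ∈ G (a + 2 + n) (b + 1 + 1) := by
    have e1 : b + 1 + 1 = b + 2 := by ring
    rw [e1]
    exact ev_mem hG hs
  obtain ⟨p, hp, q, hq, h2⟩ := hG.sd _ _ _ (by omega) h1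
  obtain ⟨v, hv, h3, h4⟩ := grad_onto hG (by omega : (1 : ℤ) ≤ a + 2) n hq
    (Submodule.neg_mem _ hp)
  have hbe : O.be ((n : k) + 1) v ∈ VV (G (a + 2) (b + 2)) (n + 1) := by
    have e1 : b + 2 = b + 1 + 1 := by ring
    rw [← cast1, e1]
    exact be_mem hG hv
  have h5 : O.ev n (s - O.be ((n : k) + 1) v) = 0 := by
    rw [O.ev_sub, O.ev_be hG.t0, h3, h4, map_neg, h2]
    abel
  obtain ⟨u, hu, h6⟩ := ev_ker hG n (Submodule.sub_mem _ hs hbe) h5
  have e2 : a + 2 - 1 = a + 1 := by ring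
  rw [e2] at hu
  exact ⟨u, hu, v, hv, by rw [← h6]; abel⟩

end Vale.Agent.P195R
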